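import Mathlib

set_option linter.unusedSectionVars false

namespace Vale.Agent.P195.Gen

universe u

section Basic

variable {R : Type u} [Ring R]

/-- The radical submodule. -/
abbrev rad (R : Type u) [Ring R] (X : Type*) [AddCommGroup X] [Module R X] : Submodule R X :=
  Ring.jacobson R • (⊤ : Submodule R X)

/-- The second radical submodule. -/
abbrev rad2 (R : Type u) [Ring R] (X : Type*) [AddCommGroup X] [Module R X] : Submodule R X :=
  Ring.jacobson R • rad R X

variable {X Y : Type*} [AddCommGroup X] [Module R X] [AddCommGroup Y] [Module R Y]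

lemma map_rad_le (f : X →ₗ[R] Y) : (rad R X).map f ≤ rad R Y := by
  rw [Submodule.map_smul'']
  exact smul_mono_right _ le_top

lemma map_rad_of_surjective (f : X →ₗ[R] Y) (hf : Function.Surjective f) :
    (rad R X).map f = rad R Y := by
  rw [Submodule.map_smul'', Submodule.map_top, LinearMap.range_eq_top.mpr hf]

lemma map_apply_mem_rad (f : X →ₗ[R] Y) {x : X} (hx : x ∈ rad R X) : f x ∈ rad R Y :=
  map_rad_le f (Submodule.mem_map_of_mem hx)

lemma map_rad2_le (f : X →ₗ[R] Y) : (rad2 R X).map f ≤ rad2 R Y := by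
  rw [Submodule.map_smul'']
  exact smul_mono_right _ (map_rad_le f)

lemma map_apply_mem_rad2 (f : X →ₗ[R] Y) {x : X} (hx : x ∈ rad2 R X) : f x ∈ rad2 R Y :=
  map_rad2_le f (Submodule.mem_map_of_mem hx)

/-- Nakayama's lemma in the form used here. -/
lemma nakayama [Module.Finite R X] (N : Submodule R X) (h : N ⊔ rad R X = ⊤) : N = ⊤ := by
  have hfg : (⊤ : Submodule R (X ⧸ N)).FG := Module.Finite.fg_top
  have hle : (⊤ : Submodule R (X ⧸ N)) ≤ Ring.jacobson R • (⊤ : Submodule R (X ⧸ N)) := by
    have h1 : (rad R X).map N.mkQ = rad R (X ⧸ N) :=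
      map_rad_of_surjective N.mkQ N.mkQ_surjective
    intro y _
    obtain ⟨x, rfl⟩ := N.mkQ_surjective y
    have hx : x ∈ N ⊔ rad R X := by rw [h]; trivial
    obtain ⟨a, ha, b, hb, rfl⟩ := Submodule.mem_sup.mp hx
    have ha0 : N.mkQ a = 0 := (Submodule.Quotient.mk_eq_zero N).mpr ha
    have h2 : N.mkQ b ∈ (rad R X).map N.mkQ := Submodule.mem_map_of_mem hb
    rw [h1] at h2
    rw [map_add, ha0, zero_add]
    exact h2
  have hbot := Submodule.FG.eq_bot_of_le_jacobson_smul hfg hle
  have hsub : Subsingleton (X ⧸ N) := (Submodule.subsingleton_iff R).mp (subsingleton_of_bot_eq_top hbot.symm)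
  exact Submodule.Quotient.subsingleton_iff.mp hsub

lemma eq_bot_of_le_rad [Module.Finite R X] (N : Submodule R X) (hfg : N.FG)
    (h : N ≤ Ring.jacobson R • N) : N = ⊥ :=
  Submodule.FG.eq_bot_of_le_jacobson_smul hfg h

/-- A surjection onto the top: if a map hits everything modulo the radical it is surjective. -/
lemma surjective_of_sup_rad [Module.Finite R Y] (f : X →ₗ[R] Y)
    (h : ∀ y, ∃ x, y - f x ∈ rad R Y) : Function.Surjective f := by
  have : LinearMap.range f = ⊤ := by
    apply nakayama
    rw [eq_top_iff]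
    intro y _
    obtain ⟨x, hx⟩ := h y
    refine Submodule.mem_sup.mpr ⟨f x, ⟨x, rfl⟩, y - f x, hx, by abel⟩
  exact LinearMap.range_eq_top.mp this

end Basic

section Semisimple

variable {R : Type u} [Ring R] [IsSemiprimaryRing R]

/-- A module killed by the radical is semisimple. -/
lemma isSemisimpleModule_of_torsion {X : Type*} [AddCommGroup X] [Module R X]
    (h : ∀ a ∈ Ring.jacobson R, ∀ x : X, a • x = 0) : IsSemisimpleModule R X := by
  have h' : Module.IsTorsionBySet R X (Ring.jacobson R) := by
    intro x a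
    exact h a a.2 x
  let _ := h'.module
  exact (h'.semilinearMap.isSemisimpleModule_iff_of_bijective Function.bijective_id).2 inferInstance

/-- The top of a module is semisimple. -/
instance instIsSemisimpleTop (X : Type*) [AddCommGroup X] [Module R X] :
    IsSemisimpleModule R (X ⧸ rad R X) := by
  apply isSemisimpleModule_of_torsion
  intro a ha x
  obtain ⟨y, rfl⟩ := Submodule.mkQ_surjective _ x
  rw [← map_smul]
  exact (Submodule.Quotient.mk_eq_zero _).mpr (Submodule.smul_mem_smul ha trivial)

end Semisimple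

end Vale.Agent.P195.Gen
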