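import Mathlib
import Vale.Agent.P195.Length
import Vale.Agent.P195.Gen.Basic

set_option linter.unusedSectionVars false
set_option linter.unusedVariables false
set_option linter.style.haveILetI false
set_option linter.deprecated false

namespace Vale.Agent.P195.Gen

open Vale.Agent.P195

universe u v w

section HomC

variable (C : Type v) [CommRing C] (R : Type u) [Ring R] [Algebra C R]

/-- Multiplication by an element of the base as a linear map. -/
def cmul (Y : Type*) [AddCommGroup Y] [Module R Y] (c : C) : Y →ₗ[R] Y where
  toFun y := algebraMap C R c • y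
  map_add' := smul_add _
  map_smul' r y := by
    simp only [RingHom.id_apply, smul_smul, Algebra.commutes]

/-- The group of linear maps with its action of the base ring. -/
def HomC (_C : Type v) (R : Type u) [Ring R] (F Y : Type*) [AddCommGroup F] [Module R F]
    [AddCommGroup Y] [Module R Y] : Type _ :=
  F →ₗ[R] Y

variable {C R}
variable {F F' Y Y' : Type*} [AddCommGroup F] [Module R F] [AddCommGroup F'] [Module R F']
  [AddCommGroup Y] [Module R Y] [AddCommGroup Y'] [Module R Y']

instance : AddCommGroup (HomC C R F Y) := inferInstanceAs (AddCommGroup (F →ₗ[R] Y))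

instance : FunLike (HomC C R F Y) F Y := inferInstanceAs (FunLike (F →ₗ[R] Y) F Y)

/-- The underlying linear map. -/
def HomC.lin (φ : HomC C R F Y) : F →ₗ[R] Y := φ

/-- From a linear map. -/
def HomC.mk (φ : F →ₗ[R] Y) : HomC C R F Y := φ

@[simp] lemma HomC.lin_apply (φ : HomC C R F Y) (x : F) : HomC.lin φ x = φ x := rfl
@[simp] lemma HomC.mk_apply (φ : F →ₗ[R] Y) (x : F) : (HomC.mk φ : HomC C R F Y) x = φ x := rfl

@[ext] lemma HomC.ext {φ ψ : HomC C R F Y} (h : ∀ x, φ x = ψ x) : φ = ψ :=
  LinearMap.ext h

@[simp] lemma HomC.add_apply (φ ψ : HomC C R F Y) (x : F) : (φ + ψ) x = φ x + ψ x := rfl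
@[simp] lemma HomC.zero_apply (x : F) : (0 : HomC C R F Y) x = 0 := rfl

instance : Module C (HomC C R F Y) where
  smul c φ := HomC.mk (cmul C R Y c ∘ₗ HomC.lin φ)
  one_smul φ := by
    apply HomC.ext
    intro x
    change algebraMap C R 1 • φ x = φ x
    simp
  mul_smul a b φ := by
    apply HomC.ext
    intro x
    change algebraMap C R (a * b) • φ x = algebraMap C R a • algebraMap C R b • φ x
    rw [map_mul, mul_smul]
  smul_zero c := by
    apply HomC.ext
    intro x
    change algebraMap C R c • (0 : Y) = 0
    simp
  smul_add c φ ψ := by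
    apply HomC.ext
    intro x
    change algebraMap C R c • (φ x + ψ x) = algebraMap C R c • φ x + algebraMap C R c • ψ x
    rw [smul_add]
  add_smul a b φ := by
    apply HomC.ext
    intro x
    change algebraMap C R (a + b) • φ x = algebraMap C R a • φ x + algebraMap C R b • φ x
    rw [map_add, add_smul]
  zero_smul φ := by
    apply HomC.ext
    intro x
    change algebraMap C R 0 • φ x = 0
    simp

@[simp] lemma HomC.smul_apply (c : C) (φ : HomC C R F Y) (x : F) :
    (c • φ) x = algebraMap C R c • φ x := rfl

/-- Precomposition. -/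
def preC (g : F' →ₗ[R] F) : HomC C R F Y →ₗ[C] HomC C R F' Y where
  toFun φ := HomC.mk (HomC.lin φ ∘ₗ g)
  map_add' φ ψ := rfl
  map_smul' c φ := rfl

@[simp] lemma preC_apply (g : F' →ₗ[R] F) (φ : HomC C R F Y) (x : F') :
    preC g φ x = φ (g x) := rfl

/-- Postcomposition. -/
def postC (f : Y →ₗ[R] Y') : HomC C R F Y →ₗ[C] HomC C R F Y' where
  toFun φ := HomC.mk (f ∘ₗ HomC.lin φ)
  map_add' φ ψ := by
    apply HomC.ext
    intro x
    exact map_add f _ _
  map_smul' c φ := by
    apply HomC.ext
    intro x
    exact map_smul f _ _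

@[simp] lemma postC_apply (f : Y →ₗ[R] Y') (φ : HomC C R F Y) (x : F) :
    postC f φ x = f (φ x) := rfl

variable (C) in
/-- Maps landing in a submodule. -/
def homIn (F : Type*) [AddCommGroup F] [Module R F] (V : Submodule R Y) :
    Submodule C (HomC C R F Y) where
  carrier := {φ | ∀ x, φ x ∈ V}
  add_mem' h1 h2 x := add_mem (h1 x) (h2 x)
  zero_mem' x := zero_mem _
  smul_mem' c φ h x := Submodule.smul_mem V _ (h x)

@[simp] lemma mem_homIn {V : Submodule R Y} {φ : HomC C R F Y} :
    φ ∈ homIn C F V ↔ ∀ x, φ x ∈ V := Iff.rfl

end HomC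

section Finite

variable (C : Type v) [CommRing C] [IsArtinianRing C] (R : Type u) [Ring R] [Algebra C R]
  [Module.Finite C R]
variable (F : Type*) (Y : Type*) [AddCommGroup F] [Module R F] [AddCommGroup Y] [Module R Y]
  [Module.Finite R F] [Module.Finite R Y]

instance instFiniteHomC : Module.Finite C (HomC C R F Y) := by
  letI : Module C Y := Module.compHom Y (algebraMap C R)
  have hT : IsScalarTower C R Y := ⟨fun c r x => by
    change (c • r) • x = (algebraMap C R c) • (r • x)
    rw [Algebra.smul_def, mul_smul]⟩
  have hfin : Module.Finite C Y := Module.Finite.trans R Y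
  obtain ⟨n, g, hg⟩ := Module.Finite.exists_fin' R F
  let ι : HomC C R F Y →ₗ[C] (Fin n → Y) :=
    { toFun := fun φ i => φ (g (Pi.single i 1))
      map_add' := fun φ ψ => rfl
      map_smul' := fun c φ => rfl }
  have hι : Function.Injective ι := by
    rw [← LinearMap.ker_eq_bot, LinearMap.ker_eq_bot']
    intro φ hφ
    apply HomC.ext
    intro x
    obtain ⟨r, rfl⟩ := hg x
    have h1 : r = ∑ i, r i • (Pi.single i 1 : Fin n → R) := by
      funext k
      simp [Finset.sum_apply, Pi.single_apply]
    rw [h1, map_sum]
    have h2 : ∀ i, φ (g (Pi.single i 1)) = 0 := fun i => congrFun hφ i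
    have h3 : φ (∑ i, g (r i • (Pi.single i 1 : Fin n → R))) =
        ∑ i, r i • φ (g (Pi.single i 1)) := by
      rw [show φ (∑ i, g (r i • (Pi.single i 1 : Fin n → R))) =
        HomC.lin φ (∑ i, g (r i • (Pi.single i 1 : Fin n → R))) from rfl, map_sum]
      refine Finset.sum_congr rfl fun i _ => ?_
      rw [map_smul, map_smul]
      rfl
    rw [h3]
    simp [h2]
  exact Module.Finite.of_injective ι hι

end Finite

section Length

variable (C : Type v) [CommRing C] [IsArtinianRing C] (R : Type u) [Ring R] [Algebra C R]
  [Module.Finite C R]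

/-- The length over the base of a group of homomorphisms. -/
noncomputable def hlen (F Y : Type*) [AddCommGroup F] [Module R F] [AddCommGroup Y] [Module R Y] :
    ℕ := (Module.length C (HomC C R F Y)).toNat

variable {F F' Y Y' Y'' : Type*} [AddCommGroup F] [Module R F] [AddCommGroup F'] [Module R F']
  [AddCommGroup Y] [Module R Y] [AddCommGroup Y'] [Module R Y'] [AddCommGroup Y''] [Module R Y'']

lemma hlen_eq_ell_top : hlen C R F Y = ell (⊤ : Submodule C (HomC C R F Y)) := by
  simp [hlen, ell, Module.length_top]

lemma hlen_congr_left (e : F ≃ₗ[R] F') : hlen C R F Y = hlen C R F' Y := by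
  let E : HomC C R F Y ≃ₗ[C] HomC C R F' Y :=
    LinearEquiv.ofLinear (preC e.symm.toLinearMap) (preC e.toLinearMap)
      (by
        apply LinearMap.ext; intro φ; apply HomC.ext; intro x
        simp)
      (by
        apply LinearMap.ext; intro φ; apply HomC.ext; intro x
        simp)
  simp only [hlen, E.length_eq]

lemma hlen_congr_right (e : Y ≃ₗ[R] Y') : hlen C R F Y = hlen C R F Y' := by
  let E : HomC C R F Y ≃ₗ[C] HomC C R F Y' :=
    LinearEquiv.ofLinear (postC e.toLinearMap) (postC e.symm.toLinearMap)
      (by
        apply LinearMap.ext; intro φ; apply HomC.ext; intro x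
        simp)
      (by
        apply LinearMap.ext; intro φ; apply HomC.ext; intro x
        simp)
  simp only [hlen, E.length_eq]

/-- The length of maps into a submodule. -/
lemma ell_homIn [Module.Finite R F] [Module.Finite R Y] (V : Submodule R Y) :
    ell (homIn C F V) = hlen C R F V := by
  let E : HomC C R F V ≃ₗ[C] homIn C F V :=
    LinearEquiv.ofBijective
      { toFun := fun φ => ⟨postC V.subtype φ, fun x => (φ x).2⟩
        map_add' := fun φ ψ => rfl
        map_smul' := fun c φ => by
          apply Subtype.ext
          exact map_smul (postC V.subtype) c φ }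
      ⟨fun φ ψ h => by
        apply HomC.ext
        intro x
        apply Subtype.ext
        have h2 := congrArg (fun χ : homIn C F V => (χ.1 : HomC C R F Y) x) h
        exact h2,
      fun χ => by
        refine ⟨HomC.mk ((HomC.lin χ.1).codRestrict V χ.2), ?_⟩
        apply Subtype.ext
        apply HomC.ext
        intro x
        rfl⟩
  simp only [ell, hlen]
  rw [E.length_eq]

variable [Module.Finite R F] [Module.Finite R F'] [Module.Finite R Y] [Module.Finite R Y']
  [Module.Finite R Y'']

lemma hlen_cast (F Y : Type*) [AddCommGroup F] [Module R F] [AddCommGroup Y] [Module R Y]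
    [Module.Finite R F] [Module.Finite R Y] :
    Module.length C (HomC C R F Y) = (hlen C R F Y : ℕ∞) :=
  (ENat.natCast_toNat Module.length_ne_top).symm

/-- Additivity on a surjection, for a projective source. -/
lemma hlen_surj [Module.Projective R F] (p : Y →ₗ[R] Y'') (hp : Function.Surjective p) :
    hlen C R F Y = hlen C R F (LinearMap.ker p) + hlen C R F Y'' := by
  have h := ell_eq_add (X := HomC C R F Y) (Y := HomC C R F Y'') (postC p) ⊤
  have h1 : (⊤ : Submodule C (HomC C R F Y)) ⊓ LinearMap.ker (postC p) =
      homIn C F (LinearMap.ker p) := by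
    rw [top_inf_eq]
    ext φ
    constructor
    · intro hφ x
      have := congrArg (fun χ : HomC C R F Y'' => χ x) (LinearMap.mem_ker.mp hφ)
      exact this
    · intro hφ
      refine LinearMap.mem_ker.mpr (HomC.ext fun x => ?_)
      exact hφ x
  have h2 : (⊤ : Submodule C (HomC C R F Y)).map (postC p) = ⊤ := by
    rw [eq_top_iff]
    intro ψ _
    obtain ⟨φ, hφ⟩ := Module.projective_lifting_property p (HomC.lin ψ) hp
    refine ⟨HomC.mk φ, trivial, HomC.ext fun x => ?_⟩
    exact congrArg (fun g => g x) hφ
  rw [h1, h2, ell_homIn, ← hlen_eq_ell_top, ← hlen_eq_ell_top] at h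
  exact h

/-- Additivity for a submodule, for a projective source. -/
lemma hlen_sub_quot [Module.Projective R F] (V : Submodule R Y) :
    hlen C R F Y = hlen C R F V + hlen C R F (Y ⧸ V) := by
  have h := hlen_surj C R (F := F) V.mkQ V.mkQ_surjective
  rw [Submodule.ker_mkQ] at h
  exact h

lemma hlen_prod_left : hlen C R (F × F') Y = hlen C R F Y + hlen C R F' Y := by
  let E : HomC C R (F × F') Y ≃ₗ[C] HomC C R F Y × HomC C R F' Y :=
    { toFun := fun φ => (preC (LinearMap.inl R F F') φ, preC (LinearMap.inr R F F') φ)
      map_add' := fun φ ψ => rfl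
      map_smul' := fun c φ => rfl
      invFun := fun ψ => HomC.mk (LinearMap.coprod (HomC.lin ψ.1) (HomC.lin ψ.2))
      left_inv := fun φ => by
        apply HomC.ext
        rintro ⟨x, y⟩
        change φ (x, 0) + φ (0, y) = φ (x, y)
        have h : ((x, 0) : F × F') + (0, y) = (x, y) := by simp
        rw [← h]
        exact (map_add (HomC.lin φ) _ _).symm
      right_inv := fun ψ => by
        apply Prod.ext
        · apply HomC.ext
          intro x
          change HomC.lin ψ.1 x + HomC.lin ψ.2 0 = ψ.1 x
          rw [map_zero, add_zero]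
          rfl
        · apply HomC.ext
          intro x
          change HomC.lin ψ.1 0 + HomC.lin ψ.2 x = ψ.2 x
          rw [map_zero, zero_add]
          rfl }
  have h := Module.length_prod C (HomC C R F Y) (HomC C R F' Y)
  rw [← E.length_eq, hlen_cast, hlen_cast, hlen_cast] at h
  exact_mod_cast h

lemma hlen_prod_right : hlen C R F (Y × Y') = hlen C R F Y + hlen C R F Y' := by
  let E : HomC C R F (Y × Y') ≃ₗ[C] HomC C R F Y × HomC C R F Y' :=
    { toFun := fun φ => (postC (LinearMap.fst R Y Y') φ, postC (LinearMap.snd R Y Y') φ)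
      map_add' := fun φ ψ => rfl
      map_smul' := fun c φ => rfl
      invFun := fun ψ => HomC.mk (LinearMap.prod (HomC.lin ψ.1) (HomC.lin ψ.2))
      left_inv := fun φ => by
        apply HomC.ext
        intro x
        rfl
      right_inv := fun ψ => by
        apply Prod.ext
        · apply HomC.ext
          intro x
          rfl
        · apply HomC.ext
          intro x
          rfl }
  have h := Module.length_prod C (HomC C R F Y) (HomC C R F Y')
  rw [← E.length_eq, hlen_cast, hlen_cast, hlen_cast] at h
  exact_mod_cast h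

end Length

end Vale.Agent.P195.Gen
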