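import Mathlib
import Vale.Agent.P195.Gen.Basic

set_option linter.unusedSectionVars false

namespace Vale.Agent.P195.Gen

universe u

section Cover

variable {R : Type u} [Ring R]

/-- The ring map from endomorphisms to endomorphisms of the top. -/
noncomputable def topHom (F : Type u) [AddCommGroup F] [Module R F] :
    Module.End R F →+* Module.End R (F ⧸ rad R F) where
  toFun φ := (rad R F).mapQ (rad R F) φ (fun _ hx => map_apply_mem_rad φ hx)
  map_one' := by
    ext x
    simp
  map_mul' φ ψ := by
    ext x
    simp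
  map_zero' := by
    ext x
    simp
  map_add' φ ψ := by
    ext x
    simp

lemma topHom_mk {F : Type u} [AddCommGroup F] [Module R F] (φ : Module.End R F) (x : F) :
    topHom F φ ((rad R F).mkQ x) = (rad R F).mkQ (φ x) := rfl

lemma map_pow_rad_step {F : Type u} [AddCommGroup F] [Module R F] (φ : Module.End R F)
    (hφ : ∀ x, φ x ∈ rad R F) (n : ℕ) {y : F}
    (hy : y ∈ (Ring.jacobson R) ^ n • (⊤ : Submodule R F)) :
    φ y ∈ (Ring.jacobson R) ^ (n + 1) • (⊤ : Submodule R F) := by
  rw [Submodule.pow_succ, Submodule.mul_smul]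
  refine Submodule.smul_induction_on hy (fun a ha z _ => ?_) (fun u v hu hv => ?_)
  · rw [map_smul]
    exact Submodule.smul_mem_smul ha (hφ z)
  · rw [map_add]
    exact add_mem hu hv

lemma isNilpotent_of_maps_to_rad {F : Type u} [AddCommGroup F] [Module R F]
    (hnil : IsNilpotent (Ring.jacobson R)) (φ : Module.End R F)
    (hφ : ∀ x, φ x ∈ rad R F) : IsNilpotent φ := by
  obtain ⟨n, hn⟩ := hnil
  refine ⟨n, ?_⟩
  have key : ∀ (k : ℕ) (x : F), (φ ^ k) x ∈ (Ring.jacobson R) ^ k • (⊤ : Submodule R F) := by
    intro k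
    induction k with
    | zero =>
      intro x
      rw [Submodule.pow_zero, Ideal.one_eq_top, Submodule.top_smul]
      trivial
    | succ k ih =>
      intro x
      rw [pow_succ', Module.End.mul_apply]
      exact map_pow_rad_step φ hφ k (ih x)
  ext x
  have h1 := key n x
  rw [hn] at h1
  have h2 : (0 : Ideal R) • (⊤ : Submodule R F) = ⊥ := Submodule.bot_smul _
  rw [h2] at h1
  simpa using h1

variable [IsArtinianRing R] [IsNoetherian R R]

/-- Existence of projective covers. -/
theorem exists_cover (X : Type u) [AddCommGroup X] [Module R X] [Module.Finite R X] :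
    ∃ (F : Type u) (_ : AddCommGroup F) (_ : Module R F) (_ : Module.Finite R F)
      (_ : Module.Projective R F) (π : F →ₗ[R] X),
      Function.Surjective π ∧ LinearMap.ker π ≤ rad R F := by
  classical
  let Q : ℕ → Prop := fun n => ∃ (F : Type u) (_ : AddCommGroup F) (_ : Module R F)
    (_ : Module.Finite R F) (_ : Module.Projective R F) (π : F →ₗ[R] X),
    Function.Surjective π ∧ (Module.length R F).toNat = n
  have hex : ∃ n, Q n := by
    obtain ⟨n, f, hf⟩ := Module.Finite.exists_fin' R X
    exact ⟨_, Fin n → R, inferInstance, inferInstance, inferInstance, inferInstance, f, hf, rfl⟩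
  obtain ⟨F, i1, i2, i3, i4, π, hπ, hn⟩ := Nat.find_spec hex
  refine ⟨F, i1, i2, i3, i4, π, hπ, ?_⟩
  by_contra hker
  obtain ⟨x₀, hx₀, hx₀'⟩ := SetLike.not_le_iff_exists.mp hker
  have hnilJ : IsNilpotent (Ring.jacobson R) := IsSemiprimaryRing.isNilpotent
  let mk := (rad R F).mkQ
  let W : Submodule R (F ⧸ rad R F) := (LinearMap.ker π).map mk
  obtain ⟨W', hc⟩ := exists_isCompl W
  have hc' : IsCompl W' W := hc.symm
  let pr := Submodule.projectionOnto W' W hc'
  let e : Module.End R (F ⧸ rad R F) := W'.subtype ∘ₗ pr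
  have he_sub : ∀ y, y - e y ∈ W := by
    intro y
    have : pr (y - e y) = 0 := by
      rw [map_sub, sub_eq_zero]
      exact (Submodule.projectionOnto_apply_left hc' (pr y)).symm
    have h2 := (Submodule.projectionOnto_apply_eq_zero_iff hc').mp this
    exact h2
  have he_W : ∀ y ∈ W, e y = 0 := by
    intro y hy
    have : pr y = 0 := (Submodule.projectionOnto_apply_eq_zero_iff hc').mpr hy
    simp [e, this]
  have he_idem : IsIdempotentElem e := by
    apply LinearMap.ext
    intro y
    have hprp : pr ((pr y : W') : F ⧸ rad R F) = pr y :=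
      Submodule.projectionOnto_apply_left hc' (pr y)
    change W'.subtype (pr ((pr y : W') : F ⧸ rad R F)) = W'.subtype (pr y)
    rw [hprp]
  obtain ⟨ε₀, hε₀⟩ := Module.projective_lifting_property mk (e ∘ₗ mk) (Submodule.mkQ_surjective _)
  have he_range : e ∈ (topHom F).range := by
    refine ⟨ε₀, ?_⟩
    apply Submodule.linearMap_qext
    ext x
    exact congrArg (fun g => g x) hε₀
  have hker_nil : ∀ φ ∈ RingHom.ker (topHom (R := R) F), IsNilpotent φ := by
    intro φ hφ
    apply isNilpotent_of_maps_to_rad hnilJ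
    intro x
    have h1 : topHom F φ (mk x) = 0 := by
      rw [RingHom.mem_ker.mp hφ]; rfl
    rw [topHom_mk] at h1
    exact (Submodule.Quotient.mk_eq_zero _).mp h1
  obtain ⟨ε, hε, hεe⟩ :=
    exists_isIdempotentElem_eq_of_ker_isNilpotent (topHom F) hker_nil e he_range he_idem
  have hmk : ∀ x, mk (ε x) = e (mk x) := by
    intro x
    rw [← hεe, topHom_mk]
  let F' : Submodule R F := LinearMap.range ε
  have hεε : ∀ x, ε (ε x) = ε x := fun x => congrArg (fun g => g x) hε
  have hF'fin : Module.Finite R F' := Module.Finite.range ε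
  have hF'proj : Module.Projective R F' := by
    refine Module.Projective.of_split F'.subtype ε.rangeRestrict ?_
    ext ⟨y, z, rfl⟩
    simp [hεε]
  let π' : F' →ₗ[R] X := π ∘ₗ F'.subtype
  have hπ' : Function.Surjective π' := by
    apply surjective_of_sup_rad
    intro y
    obtain ⟨x, rfl⟩ := hπ y
    refine ⟨⟨ε x, x, rfl⟩, ?_⟩
    have h1 : mk (x - ε x) ∈ W := by
      rw [map_sub, hmk]
      exact he_sub _
    obtain ⟨u, hu, hu'⟩ := Submodule.mem_map.mp h1
    have h2 : x - ε x - u ∈ rad R F := by
      have : mk (x - ε x - u) = 0 := by rw [map_sub, hu', sub_self]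
      exact (Submodule.Quotient.mk_eq_zero _).mp this
    have h3 : π x - π' ⟨ε x, x, rfl⟩ = π (x - ε x - u) := by
      have hu0 : π u = 0 := hu
      simp [π', hu0]
    rw [h3]
    exact map_apply_mem_rad π h2
  have hne : F' ≠ ⊤ := by
    intro htop
    have hid : ε x₀ = x₀ := by
      have : x₀ ∈ F' := by rw [htop]; trivial
      obtain ⟨z, hz⟩ := this
      rw [← hz, hεε]
    have h1 : mk (ε x₀) = 0 := by
      rw [hmk]
      exact he_W _ (Submodule.mem_map_of_mem hx₀)
    rw [hid] at h1
    exact hx₀' ((Submodule.Quotient.mk_eq_zero _).mp h1)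
  have hlt := Submodule.length_lt hne
  have hlt' : (Module.length R F').toNat < (Module.length R F).toNat := by
    have e1 : ((Module.length R F').toNat : ℕ∞) = Module.length R F' :=
      ENat.natCast_toNat (ne_top_of_lt hlt)
    have e2 : ((Module.length R F).toNat : ℕ∞) = Module.length R F :=
      ENat.natCast_toNat Module.length_ne_top
    rw [← e1, ← e2] at hlt
    exact_mod_cast hlt
  rw [hn] at hlt'
  exact Nat.find_min hex hlt' ⟨F', inferInstance, inferInstance, hF'fin, hF'proj, π', hπ', rfl⟩

end Cover

end Vale.Agent.P195.Gen
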