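import Mathlib
import Vale.Agent.P195.ExtLemmas

set_option linter.unusedSectionVars false
set_option linter.unusedVariables false

namespace Vale.Agent.P195.Gen

open CategoryTheory Abelian Vale.Agent.P195

universe u

variable {R : Type u} [Ring R]

/-- A retract in the first variable. -/
theorem ExtVan.retract_left {X X' Y : ModuleCat.{u} R} (s : X' ⟶ X) (r : X ⟶ X')
    (h : s ≫ r = 𝟙 X') (hv : ExtVan X Y) : ExtVan X' Y := by
  intro i hi e
  have he : e = (Ext.mk₀ (𝟙 X')).comp e (zero_add i) := by simp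
  rw [he, ← h, ← Ext.mk₀_comp_mk₀, Ext.comp_assoc_of_second_deg_zero]
  rw [hv i hi ((Ext.mk₀ r).comp e (zero_add i))]
  simp

/-- A retract in the second variable. -/
theorem ExtVan.retract_right {X Y Y' : ModuleCat.{u} R} (s : Y' ⟶ Y) (r : Y ⟶ Y')
    (h : s ≫ r = 𝟙 Y') (hv : ExtVan X Y) : ExtVan X Y' := by
  intro i hi e
  have he : e = e.comp (Ext.mk₀ (𝟙 Y')) (add_zero i) := by simp
  rw [he, ← h, ← Ext.mk₀_comp_mk₀, ← Ext.comp_assoc_of_third_deg_zero e (Ext.mk₀ s)
    (Ext.mk₀ r) (add_zero i)]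
  rw [hv i hi (e.comp (Ext.mk₀ s) (add_zero i))]
  simp

/-- Isomorphic first variables. -/
theorem ExtVan.equiv_left {X X' : Type u} [AddCommGroup X] [Module R X] [AddCommGroup X']
    [Module R X'] {Y : ModuleCat.{u} R} (e : X ≃ₗ[R] X') (hv : ExtVan (ModuleCat.of R X) Y) :
    ExtVan (ModuleCat.of R X') Y :=
  ExtVan.retract_left (ModuleCat.ofHom e.symm.toLinearMap) (ModuleCat.ofHom e.toLinearMap)
    (by ext x; simp) hv

/-- Isomorphic second variables. -/
theorem ExtVan.equiv_right {Y Y' : Type u} [AddCommGroup Y] [Module R Y] [AddCommGroup Y']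
    [Module R Y'] {X : ModuleCat.{u} R} (e : Y ≃ₗ[R] Y') (hv : ExtVan X (ModuleCat.of R Y)) :
    ExtVan X (ModuleCat.of R Y') :=
  ExtVan.retract_right (ModuleCat.ofHom e.symm.toLinearMap) (ModuleCat.ofHom e.toLinearMap)
    (by ext x; simp) hv

/-- Finitely generated projective targets. -/
theorem ExtVan.proj_target {Z : ModuleCat.{u} R} (h : ExtVan Z (ModuleCat.of R R))
    (Q : Type u) [AddCommGroup Q] [Module R Q] [Module.Finite R Q] [Module.Projective R Q] :
    ExtVan Z (ModuleCat.of R Q) := by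
  obtain ⟨n, f, hf⟩ := Module.Finite.exists_fin' R Q
  obtain ⟨g, hg⟩ := Module.projective_lifting_property f LinearMap.id hf
  refine ExtVan.retract_right (Y := ModuleCat.of R (Fin n → R)) (ModuleCat.ofHom g)
    (ModuleCat.ofHom f) ?_ (h.pi_target n)
  ext x
  have := congrArg (fun φ => φ x) hg
  simpa using this

/-- The condition passes to first syzygies, for a general projective. -/
theorem ExtVan.syzygy_self' {F X : Type u} [AddCommGroup F] [Module R F] [Module.Finite R F]
    [Module.Projective R F] [AddCommGroup X] [Module R X]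
    (f : F →ₗ[R] X) (hf : Function.Surjective f)
    (h1 : ExtVan (ModuleCat.of R X) (ModuleCat.of R X))
    (h2 : ExtVan (ModuleCat.of R X) (ModuleCat.of R R)) :
    ExtVan (ModuleCat.of R (LinearMap.ker f)) (ModuleCat.of R (LinearMap.ker f)) := by
  intro i hi e
  obtain ⟨k, rfl⟩ : ∃ k, i = k + 1 := ⟨i - 1, by omega⟩
  have hS := LinearMap.shortExact_shortComplexKer hf
  have hN : ExtVan (ModuleCat.of R (LinearMap.ker f)) (ModuleCat.of R X) :=
    Vale.Agent.P195.ExtVan.syzygy f hf h1
  have hF : ExtVan (ModuleCat.of R (LinearMap.ker f)) (ModuleCat.of R F) :=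
    ExtVan.proj_target (Vale.Agent.P195.ExtVan.syzygy f hf h2) F
  obtain ⟨x₃, hx₃⟩ := Ext.covariant_sequence_exact₁ (ModuleCat.of R (LinearMap.ker f)) hS e
    (hF (k + 1) (by omega) _) (n₀ := k) rfl
  rcases Nat.eq_zero_or_pos k with rfl | hk
  · obtain ⟨φ, rfl⟩ := Ext.mk₀_bijective _ _ |>.2 x₃
    have hone : ∀ e : Ext (ModuleCat.of R X) (ModuleCat.of R X) 1, e = 0 := h1 1 le_rfl
    obtain ⟨φ', hφ'⟩ := extend_of_ext_one f hf hone φ.hom
    obtain ⟨ψ, hψ⟩ := Module.projective_lifting_property f φ' hf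
    let θ : ModuleCat.of R (LinearMap.ker f) ⟶ ModuleCat.of R F :=
      ModuleCat.ofHom (ψ ∘ₗ (LinearMap.ker f).subtype)
    have hφ : φ = θ ≫ (f.shortComplexKer).g := by
      ext x
      have h3 := hφ' x
      have h4 := congrArg (fun g => g (x : F)) hψ
      simp only [LinearMap.comp_apply] at h4
      simp only [θ, ModuleCat.hom_comp, ModuleCat.hom_ofHom, LinearMap.comp_apply,
        Submodule.subtype_apply]
      rw [h4, h3]
    rw [← hx₃, hφ, ← Ext.mk₀_comp_mk₀, Ext.comp_assoc_of_second_deg_zero,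
      ShortComplex.ShortExact.comp_extClass]
    simp
  · rw [← hx₃, hN k hk x₃]
    simp

end Vale.Agent.P195.Gen
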