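import Mathlib
import Vale.Agent.P195.Gen.Cover
import Vale.Agent.P195.Gen.ExtMore

set_option linter.unusedSectionVars false
set_option linter.unusedVariables false

namespace Vale.Agent.P195.Gen

open CategoryTheory Abelian Vale.Agent.P195

universe u

/-- A bundled finitely generated module. -/
structure FM (R : Type u) [Ring R] where
  X : Type u
  [acg : AddCommGroup X]
  [mod : Module R X]
  [fin : Module.Finite R X]

attribute [instance] FM.acg FM.mod FM.fin

/-- A projective cover. -/
structure Cov (R : Type u) [Ring R] (X : Type u) [AddCommGroup X] [Module R X] where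
  F : Type u
  [acg : AddCommGroup F]
  [mod : Module R F]
  [fin : Module.Finite R F]
  [proj : Module.Projective R F]
  π : F →ₗ[R] X
  surj : Function.Surjective π
  ker_le : LinearMap.ker π ≤ rad R F

attribute [instance] Cov.acg Cov.mod Cov.fin Cov.proj

section Tower

variable {R : Type u} [Ring R] [IsArtinianRing R] [IsNoetherian R R]

theorem nonempty_cov (X : Type u) [AddCommGroup X] [Module R X] [Module.Finite R X] :
    Nonempty (Cov R X) := by
  obtain ⟨F, i1, i2, i3, i4, π, h1, h2⟩ := exists_cover (R := R) X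
  exact ⟨{ F := F, π := π, surj := h1, ker_le := h2 }⟩

/-- The chosen cover. -/
noncomputable def FM.cov (Z : FM R) : Cov R Z.X := Classical.choice (nonempty_cov Z.X)

/-- The projective of the chosen cover. -/
abbrev FM.F (Z : FM R) : Type u := Z.cov.F

/-- The covering map. -/
noncomputable abbrev FM.π (Z : FM R) : Z.F →ₗ[R] Z.X := Z.cov.π

lemma FM.surj (Z : FM R) : Function.Surjective Z.π := Z.cov.surj

lemma FM.ker_le (Z : FM R) : LinearMap.ker Z.π ≤ rad R Z.F := Z.cov.ker_le

/-- The kernel of the cover, as a bundled module. -/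
noncomputable def FM.next (Z : FM R) : FM R where
  X := LinearMap.ker Z.π
  fin := Module.Finite.of_fg (IsNoetherian.noetherian _)

/-- The inclusion of the next module. -/
noncomputable def FM.inc (Z : FM R) : Z.next.X →ₗ[R] Z.F := (LinearMap.ker Z.π).subtype

lemma FM.inc_inj (Z : FM R) : Function.Injective Z.inc :=
  (LinearMap.ker Z.π).injective_subtype

lemma FM.π_inc (Z : FM R) (x : Z.next.X) : Z.π (Z.inc x) = 0 :=
  (show LinearMap.ker Z.π from x).2

lemma FM.exists_inc (Z : FM R) (y : Z.F) (hy : Z.π y = 0) : ∃ x, Z.inc x = y :=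
  ⟨(⟨y, hy⟩ : LinearMap.ker Z.π), rfl⟩

lemma FM.inc_mem_rad (Z : FM R) (x : Z.next.X) : Z.inc x ∈ rad R Z.F :=
  Z.ker_le (Z.π_inc x)

/-- The differential. -/
noncomputable def FM.d (Z : FM R) : Z.next.F →ₗ[R] Z.F := Z.inc ∘ₗ Z.next.π

@[simp] lemma FM.d_apply (Z : FM R) (x : Z.next.F) : Z.d x = Z.inc (Z.next.π x) := rfl

/-- The first `Ext` vanishes. -/
def FM.Ext1 (Z : FM R) (Y : Type u) [AddCommGroup Y] [Module R Y] : Prop :=
  ∀ e : Ext (ModuleCat.of R Z.X) (ModuleCat.of R Y) 1, e = 0

lemma FM.extend (Z : FM R) {Y : Type u} [AddCommGroup Y] [Module R Y] (h : Z.Ext1 Y)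
    (g : Z.next.X →ₗ[R] Y) : ∃ φ : Z.F →ₗ[R] Y, ∀ x, φ (Z.inc x) = g x :=
  extend_of_ext_one (Y := ModuleCat.of R Y) Z.π Z.surj h g

/-- The tower of syzygies. -/
noncomputable def tower (Z : FM R) : ℕ → FM R
  | 0 => Z
  | i + 1 => (tower Z i).next

/-- The conditions of the problem. -/
def FM.AR (Z : FM R) : Prop :=
  ExtVan (ModuleCat.of R Z.X) (ModuleCat.of R Z.X) ∧
    ExtVan (ModuleCat.of R Z.X) (ModuleCat.of R R)

lemma FM.syz (Z : FM R) {Y : ModuleCat.{u} R} (h : ExtVan (ModuleCat.of R Z.X) Y) :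
    ExtVan (ModuleCat.of R Z.next.X) Y :=
  Vale.Agent.P195.ExtVan.syzygy Z.π Z.surj h

lemma FM.AR.next {Z : FM R} (h : Z.AR) : Z.next.AR :=
  ⟨ExtVan.syzygy_self' Z.π Z.surj h.1 h.2, Z.syz h.2⟩

lemma tower_AR {Z : FM R} (h : Z.AR) (k : ℕ) : (tower Z k).AR := by
  induction k with
  | zero => exact h
  | succ k ih => exact ih.next

/-- Shifting along the tower. -/
lemma tower_van {Z : FM R} {Y : ModuleCat.{u} R} (k : ℕ)
    (h : ExtVan (ModuleCat.of R (tower Z k).X) Y) (t : ℕ) :
    ExtVan (ModuleCat.of R (tower Z (k + t)).X) Y := by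
  induction t with
  | zero => exact h
  | succ t ih => exact (tower Z (k + t)).syz ih

/-- If the kernel is projective, so is the module. -/
lemma FM.proj_of_next (Z : FM R) (hR : ExtVan (ModuleCat.of R Z.X) (ModuleCat.of R R))
    (hP : Module.Projective R Z.next.X) : Module.Projective R Z.X := by
  have hvan : ExtVan (ModuleCat.of R Z.X) (ModuleCat.of R Z.next.X) :=
    ExtVan.proj_target hR Z.next.X
  obtain ⟨r, hr⟩ := Z.extend (fun e => hvan 1 le_rfl e) LinearMap.id
  have hsub : (⊤ : Submodule R Z.next.X) = ⊥ := by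
    apply eq_bot_of_le_rad _ Module.Finite.fg_top
    intro x _
    have h1 : r (Z.inc x) ∈ rad R Z.next.X := map_apply_mem_rad r (Z.inc_mem_rad x)
    rw [hr] at h1
    exact h1
  have hinj : Function.Injective Z.π := by
    rw [← LinearMap.ker_eq_bot, LinearMap.ker_eq_bot']
    intro y hy
    obtain ⟨x, rfl⟩ := Z.exists_inc y hy
    have : x = 0 := by
      have hx : x ∈ (⊤ : Submodule R Z.next.X) := trivial
      rw [hsub] at hx
      exact hx
    rw [this, map_zero]
  exact Module.Projective.of_equiv (LinearEquiv.ofBijective Z.π ⟨hinj, Z.surj⟩)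

lemma tower_proj {Z : FM R} (hAR : Z.AR) (k : ℕ) (hP : Module.Projective R (tower Z k).X) :
    Module.Projective R Z.X := by
  induction k with
  | zero => exact hP
  | succ k ih => exact ih ((tower Z k).proj_of_next (tower_AR hAR k).2 hP)

/-- A killing lemma: an element of the radical dies under a map to something killed by `J`. -/
lemma vanish_on_rad {F Y : Type*} [AddCommGroup F] [Module R F] [AddCommGroup Y] [Module R Y]
    (ψ : F →ₗ[R] Y) (W : Submodule R Y) (hψ : ∀ x, ψ x ∈ W)
    (hW : ∀ a ∈ Ring.jacobson R, ∀ v ∈ W, a • v = 0) {y : F} (hy : y ∈ rad R F) : ψ y = 0 := by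
  refine Submodule.smul_induction_on hy (fun a ha z _ => ?_) (fun u v hu hv => ?_)
  · rw [map_smul]
    exact hW a ha _ (hψ z)
  · rw [map_add, hu, hv, add_zero]

/-- Factorization through a surjection. -/
lemma factor_through {F X Y : Type*} [AddCommGroup F] [Module R F] [AddCommGroup X] [Module R X]
    [AddCommGroup Y] [Module R Y] (π : F →ₗ[R] X) (hπ : Function.Surjective π) (ψ : F →ₗ[R] Y)
    (h : LinearMap.ker π ≤ LinearMap.ker ψ) : ∃ ψ' : X →ₗ[R] Y, ∀ x, ψ' (π x) = ψ x := by
  refine ⟨(LinearMap.ker π).liftQ ψ h ∘ₗ (π.quotKerEquivOfSurjective hπ).symm.toLinearMap,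
    fun x => ?_⟩
  have h1 : (π.quotKerEquivOfSurjective hπ).symm (π x) = Submodule.Quotient.mk x := by
    rw [LinearEquiv.symm_apply_eq]
    rfl
  change (LinearMap.ker π).liftQ ψ h ((π.quotKerEquivOfSurjective hπ).symm (π x)) = _
  rw [h1]
  rfl

/-- The second radical power kills `Z.next` when the cube of the radical vanishes. -/
lemma FM.next_sq (Z : FM R)
    (hJ : ∀ a ∈ Ring.jacobson R, ∀ b ∈ Ring.jacobson R, ∀ c ∈ Ring.jacobson R, a * b * c = 0)
    (a : R) (ha : a ∈ Ring.jacobson R) (b : R) (hb : b ∈ Ring.jacobson R) (x : Z.next.X) :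
    a • b • x = 0 := by
  apply Z.inc_inj
  rw [map_smul, map_smul, map_zero]
  refine Submodule.smul_induction_on (Z.inc_mem_rad x) (fun c hc z _ => ?_) (fun u v hu hv => ?_)
  · rw [smul_smul, smul_smul, hJ a ha b hb c hc, zero_smul]
  · rw [smul_add, smul_add, hu, hv, add_zero]

/-- A module with vanishing second radical power: `J` kills its radical. -/
lemma kill_rad {Y : Type*} [AddCommGroup Y] [Module R Y]
    (hY : ∀ a ∈ Ring.jacobson R, ∀ b ∈ Ring.jacobson R, ∀ x : Y, a • b • x = 0) :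
    ∀ a ∈ Ring.jacobson R, ∀ v ∈ rad R Y, a • v = 0 := by
  intro a ha v hv
  refine Submodule.smul_induction_on hv (fun b hb z _ => hY a ha b hb z) (fun u w hu hw => ?_)
  rw [smul_add, hu, hw, add_zero]

/-- `J` kills the second radical of any module if the cube of `J` vanishes. -/
lemma kill_rad2 {Y : Type*} [AddCommGroup Y] [Module R Y]
    (hJ : ∀ a ∈ Ring.jacobson R, ∀ b ∈ Ring.jacobson R, ∀ c ∈ Ring.jacobson R, a * b * c = 0) :
    ∀ a ∈ Ring.jacobson R, ∀ v ∈ rad2 R Y, a • v = 0 := by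
  intro a ha v hv
  refine Submodule.smul_induction_on hv (fun b hb z hz => ?_) (fun u w hu hw => ?_)
  · refine Submodule.smul_induction_on hz (fun c hc t _ => ?_) (fun u w hu hw => ?_)
    · rw [smul_smul, smul_smul, hJ a ha b hb c hc, zero_smul]
    · rw [smul_add, smul_add, hu, hw, add_zero]
  · rw [smul_add, hu, hw, add_zero]

lemma map_inc_rad_le (Z : FM R) : (rad R Z.next.X).map Z.inc ≤ rad2 R Z.F := by
  rw [Submodule.map_smul'']
  refine smul_mono_right _ ?_
  rintro _ ⟨x, _, rfl⟩
  exact Z.inc_mem_rad x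

end Tower

end Vale.Agent.P195.Gen
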