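import Mathlib
import Vale.Agent.P195.Gen.Tower
import Vale.Agent.P195.Gen.HomLength

set_option linter.unusedSectionVars false
set_option linter.unusedVariables false

namespace Vale.Agent.P195.Gen

open CategoryTheory Abelian Vale.Agent.P195

universe u v

section Steps

variable (C : Type v) [CommRing C] [IsArtinianRing C] (R : Type u) [Ring R] [Algebra C R]
  [Module.Finite C R] [IsArtinianRing R] [IsNoetherian R R]

variable {R}
variable {Y : Type u} [AddCommGroup Y] [Module R Y] [Module.Finite R Y]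

lemma range_pre (Z : FM R) (h1 : Z.Ext1 Y)
    (hV : ∀ a ∈ Ring.jacobson R, ∀ v ∈ rad R Y, a • v = 0) :
    LinearMap.range (preC Z.d : HomC C R Z.F Y →ₗ[C] HomC C R Z.next.F Y) =
      homIn C Z.next.F (rad R Y) := by
  apply le_antisymm
  · rintro _ ⟨φ, rfl⟩ x
    exact map_apply_mem_rad (HomC.lin φ) (Z.inc_mem_rad _)
  · intro ψ hψ
    have hker : LinearMap.ker Z.next.π ≤ LinearMap.ker (HomC.lin ψ) := by
      intro y hy
      exact vanish_on_rad (HomC.lin ψ) (rad R Y) hψ hV (Z.next.ker_le hy)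
    obtain ⟨ψ', hψ'⟩ := factor_through Z.next.π Z.next.surj (HomC.lin ψ) hker
    obtain ⟨φ, hφ⟩ := Z.extend h1 ψ'
    refine ⟨HomC.mk φ, HomC.ext fun x => ?_⟩
    change φ (Z.inc (Z.next.π x)) = ψ x
    rw [hφ, hψ']
    rfl

lemma ker_pre (Z : FM R) (h1 : Z.Ext1 Y)
    (hV : ∀ a ∈ Ring.jacobson R, ∀ v ∈ rad R Y, a • v = 0) :
    LinearMap.ker (preC Z.next.d : HomC C R Z.next.F Y →ₗ[C] HomC C R Z.next.next.F Y) =
      homIn C Z.next.F (rad R Y) := by
  apply le_antisymm
  · intro ψ hψ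
    have h0 : ∀ t : Z.next.next.X, ψ (Z.next.inc t) = 0 := by
      intro t
      obtain ⟨x, rfl⟩ := Z.next.next.surj t
      have := congrArg (fun χ : HomC C R Z.next.next.F Y => χ x) (LinearMap.mem_ker.mp hψ)
      exact this
    have hker : LinearMap.ker Z.next.π ≤ LinearMap.ker (HomC.lin ψ) := by
      intro y hy
      obtain ⟨t, rfl⟩ := Z.next.exists_inc y hy
      exact h0 t
    obtain ⟨ψ', hψ'⟩ := factor_through Z.next.π Z.next.surj (HomC.lin ψ) hker
    obtain ⟨φ, hφ⟩ := Z.extend h1 ψ'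
    intro x
    have h2 : φ (Z.inc (Z.next.π x)) = ψ x := by
      rw [hφ, hψ']
      rfl
    rw [← h2]
    exact map_apply_mem_rad φ (Z.inc_mem_rad _)
  · intro ψ hψ
    refine LinearMap.mem_ker.mpr (HomC.ext fun x => ?_)
    exact vanish_on_rad (HomC.lin ψ) (rad R Y) hψ hV (Z.next.inc_mem_rad _)

/-- The exactness count. -/
lemma count_E (Z : FM R) (h0 : Z.Ext1 Y) (h1 : Z.next.Ext1 Y)
    (hV : ∀ a ∈ Ring.jacobson R, ∀ v ∈ rad R Y, a • v = 0) :
    hlen C R Z.next.F Y = hlen C R Z.next.F (rad R Y) + hlen C R Z.next.next.F (rad R Y) := by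
  have h := ell_eq_add (X := HomC C R Z.next.F Y) (Y := HomC C R Z.next.next.F Y)
    (preC Z.next.d) ⊤
  rw [top_inf_eq, ker_pre C Z h0 hV, Submodule.map_top, range_pre C Z.next h1 hV,
    ell_homIn, ell_homIn, ← hlen_eq_ell_top] at h
  exact h

/-- The strict count at the first spot. -/
lemma count_S (Z : FM R) (h1 : Z.Ext1 Z.X)
    (hV : ∀ a ∈ Ring.jacobson R, ∀ v ∈ rad R Z.X, a • v = 0) (hne : Nontrivial Z.X) :
    hlen C R Z.F (rad R Z.X) + hlen C R Z.next.F (rad R Z.X) < hlen C R Z.F Z.X := by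
  have h := ell_eq_add (X := HomC C R Z.F Z.X) (Y := HomC C R Z.next.F Z.X) (preC Z.d) ⊤
  rw [top_inf_eq, Submodule.map_top, range_pre C Z h1 hV, ell_homIn, ← hlen_eq_ell_top] at h
  have hlt : homIn C Z.F (rad R Z.X) < LinearMap.ker
      (preC Z.d : HomC C R Z.F Z.X →ₗ[C] HomC C R Z.next.F Z.X) := by
    refine lt_of_le_of_ne ?_ ?_
    · intro ψ hψ
      refine LinearMap.mem_ker.mpr (HomC.ext fun x => ?_)
      exact vanish_on_rad (HomC.lin ψ) (rad R Z.X) hψ hV (Z.inc_mem_rad _)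
    · intro heq
      have hmem : (HomC.mk Z.π : HomC C R Z.F Z.X) ∈ LinearMap.ker
          (preC Z.d : HomC C R Z.F Z.X →ₗ[C] HomC C R Z.next.F Z.X) := by
        refine LinearMap.mem_ker.mpr (HomC.ext fun x => ?_)
        exact Z.π_inc _
      rw [← heq] at hmem
      have htop : (⊤ : Submodule R Z.X) = ⊥ := by
        apply eq_bot_of_le_rad _ Module.Finite.fg_top
        intro y _
        obtain ⟨x, rfl⟩ := Z.surj y
        exact hmem x
      exact not_subsingleton Z.X
        ((Submodule.subsingleton_iff R).mp (subsingleton_of_bot_eq_top htop.symm))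
  have h2 := ell_lt_of_lt hlt
  rw [ell_homIn] at h2
  omega

variable {Q : Type u} [AddCommGroup Q] [Module R Q] [Module.Finite R Q] [Module.Projective R Q]

lemma count_T1 (Z : FM R) :
    hlen C R Q Z.F = hlen C R Q Z.next.X + hlen C R Q Z.X :=
  hlen_surj C R Z.π Z.surj

lemma count_T2 (Z : FM R) :
    hlen C R Q (rad R Z.F) = hlen C R Q Z.next.X + hlen C R Q (rad R Z.X) := by
  let p : rad R Z.F →ₗ[R] rad R Z.X := Z.π.restrict (fun x hx => map_apply_mem_rad Z.π hx)
  have hp : Function.Surjective p := by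
    rintro ⟨y, hy⟩
    rw [← map_rad_of_surjective Z.π Z.surj] at hy
    obtain ⟨x, hx, rfl⟩ := Submodule.mem_map.mp hy
    exact ⟨⟨x, hx⟩, rfl⟩
  have h := hlen_surj C R (F := Q) p hp
  let e : LinearMap.ker p ≃ₗ[R] Z.next.X :=
    { toFun := fun x => (⟨x.1.1, congrArg Subtype.val x.2⟩ : LinearMap.ker Z.π)
      map_add' := fun x y => rfl
      map_smul' := fun c x => rfl
      invFun := fun x =>
        ⟨⟨Z.inc x, Z.inc_mem_rad x⟩, Subtype.ext (Z.π_inc x)⟩
      left_inv := fun x => rfl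
      right_inv := fun x => rfl }
  rw [h, hlen_congr_right C R (F := Q) e]

lemma count_G (Z : FM R) (hG : rad2 R Z.F ≤ (rad R Z.next.X).map Z.inc) :
    hlen C R Q (rad R Z.next.X) = hlen C R Q (rad2 R Z.F) := by
  have heq : (rad R Z.next.X).map Z.inc = rad2 R Z.F := le_antisymm (map_inc_rad_le Z) hG
  let e₁ := Submodule.equivMapOfInjective Z.inc Z.inc_inj (rad R Z.next.X)
  let e₂ := LinearEquiv.ofEq _ _ heq
  exact hlen_congr_right C R (F := Q) (e₁.trans e₂)

end Steps

end Vale.Agent.P195.Gen
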