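import Mathlib
import Vale.Agent.P195.Gen.Steps

set_option linter.unusedSectionVars false
set_option linter.unusedVariables false

namespace Vale.Agent.P195.Gen

open CategoryTheory Abelian Vale.Agent.P195

universe u v

/-- A finite-dimensional stabilization statement. -/
theorem stable_index {A : Type*} [Fintype A] (w : ℕ → A → ℚ) :
    ∃ K, ∀ c : A → ℚ, (∀ i, K + 2 ≤ i → ∑ a, w i a * c a = 0) → ∑ a, w K a * c a = 0 := by
  classical
  let U : ℕ → Submodule ℚ (A → ℚ) := fun j => Submodule.span ℚ (w '' Set.Ici j)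
  have hU : Antitone U := by
    intro i j hij
    apply Submodule.span_mono
    exact Set.image_mono (Set.Ici_subset_Ici.mpr hij)
  obtain ⟨n, hn⟩ := IsArtinian.monotone_stabilizes (R := ℚ) (M := A → ℚ)
    ⟨fun j => OrderDual.toDual (U j), fun i j hij => hU hij⟩
  have hstab : U n = U (n + 2) := hn (n + 2) (by omega)
  have hzn : w n ∈ U (n + 2) := by
    rw [← hstab]
    exact Submodule.subset_span ⟨n, Set.mem_Ici.mpr le_rfl, rfl⟩
  refine ⟨n, fun c hc => ?_⟩
  let f : (A → ℚ) →ₗ[ℚ] ℚ :=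
    { toFun := fun p => ∑ a, p a * c a
      map_add' := by
        intro p q
        simp only [Pi.add_apply, add_mul, Finset.sum_add_distrib]
      map_smul' := by
        intro r p
        simp only [Pi.smul_apply, smul_eq_mul, RingHom.id_apply, Finset.mul_sum]
        exact Finset.sum_congr rfl fun a _ => by ring }
  have hle : U (n + 2) ≤ LinearMap.ker f := by
    apply Submodule.span_le.mpr
    rintro _ ⟨j, hj, rfl⟩
    exact LinearMap.mem_ker.mpr (hc j hj)
  exact LinearMap.mem_ker.mp (hle hzn)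

section IT

variable (C : Type v) [CommRing C] [IsArtinianRing C] {R : Type u} [Ring R] [Algebra C R]
  [Module.Finite C R] [IsArtinianRing R] [IsNoetherian R R]

/-- Additivity in the first variable along a short exact sequence whenever maps extend. -/
lemma hlen_first_exact {V₀ V₁ X Y : Type*} [AddCommGroup V₀] [Module R V₀] [AddCommGroup V₁]
    [Module R V₁] [AddCommGroup X] [Module R X] [AddCommGroup Y] [Module R Y]
    [Module.Finite R V₀] [Module.Finite R V₁] [Module.Finite R X] [Module.Finite R Y]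
    (i : V₁ →ₗ[R] V₀) (p : V₀ →ₗ[R] X) (hp : Function.Surjective p)
    (hex : Function.Exact i p)
    (hext : ∀ g : V₁ →ₗ[R] Y, ∃ φ : V₀ →ₗ[R] Y, ∀ x, φ (i x) = g x) :
    hlen C R V₀ Y = hlen C R X Y + hlen C R V₁ Y := by
  have h := ell_eq_add (X := HomC C R V₀ Y) (Y := HomC C R V₁ Y) (preC i) ⊤
  rw [top_inf_eq, Submodule.map_top] at h
  have hr : LinearMap.range (preC i : HomC C R V₀ Y →ₗ[C] HomC C R V₁ Y) = ⊤ := by
    rw [eq_top_iff]
    intro ψ _
    obtain ⟨φ, hφ⟩ := hext (HomC.lin ψ)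
    exact ⟨HomC.mk φ, HomC.ext hφ⟩
  let g : HomC C R X Y →ₗ[C] LinearMap.ker (preC i : HomC C R V₀ Y →ₗ[C] HomC C R V₁ Y) :=
    (preC p).codRestrict _ (fun φ => LinearMap.mem_ker.mpr (HomC.ext fun x => by
      have h0 : p (i x) = 0 := (hex _).mpr ⟨x, rfl⟩
      change HomC.lin φ (p (i x)) = 0
      rw [h0, map_zero]))
  have hginj : Function.Injective g := by
    intro φ ψ h
    apply HomC.ext
    intro x
    obtain ⟨y, rfl⟩ := hp x
    have h2 := congrArg (fun χ : LinearMap.ker (preC i : HomC C R V₀ Y →ₗ[C] HomC C R V₁ Y) =>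
      (χ.1 : HomC C R V₀ Y) y) h
    exact h2
  have hgsurj : Function.Surjective g := by
    intro χ
    have hker : LinearMap.ker p ≤ LinearMap.ker (HomC.lin χ.1) := by
      intro y hy
      obtain ⟨t, rfl⟩ := (hex y).mp hy
      have := congrArg (fun ψ : HomC C R V₁ Y => ψ t) (LinearMap.mem_ker.mp χ.2)
      exact this
    obtain ⟨ψ', hψ'⟩ := factor_through p hp (HomC.lin χ.1) hker
    exact ⟨HomC.mk ψ', Subtype.ext (HomC.ext fun x => hψ' x)⟩
  let E := LinearEquiv.ofBijective g ⟨hginj, hgsurj⟩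
  have hk : ell (LinearMap.ker (preC i : HomC C R V₀ Y →ₗ[C] HomC C R V₁ Y)) = hlen C R X Y := by
    simp only [ell, hlen]
    rw [E.length_eq]
  rw [hr, hk, ← hlen_eq_ell_top, ← hlen_eq_ell_top] at h
  exact h

/-- Additivity in the second variable whenever maps lift. -/
lemma hlen_second_exact {Q F X : Type*} [AddCommGroup Q] [Module R Q] [AddCommGroup F] [Module R F]
    [AddCommGroup X] [Module R X] [Module.Finite R Q] [Module.Finite R F] [Module.Finite R X]
    (π : F →ₗ[R] X)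
    (hl : ∀ g : Q →ₗ[R] X, ∃ φ : Q →ₗ[R] F, ∀ x, π (φ x) = g x) :
    hlen C R Q F = hlen C R Q (LinearMap.ker π) + hlen C R Q X := by
  have h := ell_eq_add (X := HomC C R Q F) (Y := HomC C R Q X) (postC π) ⊤
  have h1 : (⊤ : Submodule C (HomC C R Q F)) ⊓ LinearMap.ker (postC π) =
      homIn C Q (LinearMap.ker π) := by
    rw [top_inf_eq]
    ext φ
    constructor
    · intro hφ x
      have := congrArg (fun χ : HomC C R Q X => χ x) (LinearMap.mem_ker.mp hφ)
      exact this
    · intro hφ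
      refine LinearMap.mem_ker.mpr (HomC.ext fun x => ?_)
      exact hφ x
  have h2 : (⊤ : Submodule C (HomC C R Q F)).map (postC π) = ⊤ := by
    rw [eq_top_iff]
    intro ψ _
    obtain ⟨φ, hφ⟩ := hl (HomC.lin ψ)
    exact ⟨HomC.mk φ, trivial, HomC.ext hφ⟩
  rw [h1, h2, ell_homIn, ← hlen_eq_ell_top, ← hlen_eq_ell_top] at h
  exact h

/-- Lifting along the chosen cover, from vanishing of `Ext¹`. -/
lemma FM.lift (Z : FM R) {Q : Type u} [AddCommGroup Q] [Module R Q]
    (h : ∀ e : Ext (ModuleCat.of R Q) (ModuleCat.of R Z.next.X) 1, e = 0) (g : Q →ₗ[R] Z.X) :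
    ∃ φ : Q →ₗ[R] Z.F, ∀ x, Z.π (φ x) = g x := by
  have hS := LinearMap.shortExact_shortComplexKer Z.surj
  let x₃ : Ext (ModuleCat.of R Q) (Z.π.shortComplexKer).X₃ 0 := Ext.mk₀ (ModuleCat.ofHom g)
  obtain ⟨x₂, hx₂⟩ := Ext.covariant_sequence_exact₃ (ModuleCat.of R Q) hS x₃ (n₁ := 1) (by omega)
    (h _)
  obtain ⟨φ, rfl⟩ := Ext.mk₀_bijective _ _ |>.2 x₂
  rw [Ext.mk₀_comp_mk₀] at hx₂
  have := (Ext.mk₀_bijective _ _).1 hx₂
  refine ⟨φ.hom, fun x => ?_⟩
  have h2 := congrArg (fun ψ => ψ.hom x) this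
  simpa using h2

/-- Extension along a short exact sequence, from vanishing of `Ext¹`. -/
lemma extend_along {V₀ V₁ X Y : Type u} [AddCommGroup V₀] [Module R V₀] [AddCommGroup V₁]
    [Module R V₁] [AddCommGroup X] [Module R X] [AddCommGroup Y] [Module R Y]
    (i : V₁ →ₗ[R] V₀) (p : V₀ →ₗ[R] X) (hi : Function.Injective i)
    (hp : Function.Surjective p) (hex : Function.Exact i p)
    (h : ∀ e : Ext (ModuleCat.of R X) (ModuleCat.of R Y) 1, e = 0) (g : V₁ →ₗ[R] Y) :
    ∃ φ : V₀ →ₗ[R] Y, ∀ x, φ (i x) = g x := by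
  have hrk : LinearMap.range i = LinearMap.ker p := hex.linearMap_ker_eq.symm
  let e : V₁ ≃ₗ[R] LinearMap.ker p :=
    (LinearEquiv.ofInjective i hi).trans (LinearEquiv.ofEq _ _ hrk)
  obtain ⟨φ, hφ⟩ := extend_of_ext_one (Y := ModuleCat.of R Y) p hp h (g ∘ₗ e.symm.toLinearMap)
  refine ⟨φ, fun x => ?_⟩
  have h1 := hφ (e x)
  have h2 : ((e x : LinearMap.ker p) : V₀) = i x := rfl
  rw [h2] at h1
  rw [h1]
  simp

/-- The count against a cover. -/
lemma count_second (Z : FM R) {Q : Type u} [AddCommGroup Q] [Module R Q] [Module.Finite R Q]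
    (h : ∀ e : Ext (ModuleCat.of R Q) (ModuleCat.of R Z.next.X) 1, e = 0) :
    hlen C R Q Z.F = hlen C R Q Z.next.X + hlen C R Q Z.X :=
  hlen_second_exact C Z.π (fun g => Z.lift h g)

/-- The pattern of vanishing at later places of the resolution. -/
lemma count_vanish (Z : FM R) {V₀ V₁ X : Type u} [AddCommGroup V₀] [Module R V₀]
    [AddCommGroup V₁] [Module R V₁] [AddCommGroup X] [Module R X]
    [Module.Finite R V₀] [Module.Finite R V₁] [Module.Finite R X]
    (i : V₁ →ₗ[R] V₀) (p : V₀ →ₗ[R] X) (hi : Function.Injective i)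
    (hp : Function.Surjective p) (hex : Function.Exact i p)
    (h₁ : ∀ e : Ext (ModuleCat.of R X) (ModuleCat.of R Z.X) 1, e = 0)
    (h₂ : ∀ e : Ext (ModuleCat.of R X) (ModuleCat.of R Z.next.X) 1, e = 0)
    (h₃ : ∀ e : Ext (ModuleCat.of R X) (ModuleCat.of R Z.F) 1, e = 0) :
    hlen C R V₀ Z.X + hlen C R V₀ Z.next.X + hlen C R V₁ Z.F =
      hlen C R V₁ Z.X + hlen C R V₁ Z.next.X + hlen C R V₀ Z.F := by
  have e₁ := hlen_first_exact C i p hp hex (extend_along i p hi hp hex h₁)
  have e₂ := hlen_first_exact C i p hp hex (extend_along i p hi hp hex h₂)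
  have e₃ := hlen_first_exact C i p hp hex (extend_along i p hi hp hex h₃)
  have e₄ := count_second C Z h₂
  omega

/-- The strict inequality when the presentation does not lift to the cover. -/
lemma count_pos (Z : FM R) {V₀ V₁ : Type u} [AddCommGroup V₀] [Module R V₀]
    [AddCommGroup V₁] [Module R V₁] [Module.Finite R V₀] [Module.Finite R V₁]
    (i : V₁ →ₗ[R] V₀) (p : V₀ →ₗ[R] Z.X) (hi : Function.Injective i)
    (hp : Function.Surjective p) (hex : Function.Exact i p)
    (h₁ : ∀ e : Ext (ModuleCat.of R Z.X) (ModuleCat.of R Z.X) 1, e = 0)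
    (hnl : ¬ ∃ q : V₀ →ₗ[R] Z.F, ∀ x, Z.π (q x) = p x) :
    hlen C R V₁ Z.X + hlen C R V₁ Z.next.X + hlen C R V₀ Z.F <
      hlen C R V₀ Z.X + hlen C R V₀ Z.next.X + hlen C R V₁ Z.F := by
  classical
  let B₀ : Submodule C (HomC C R V₀ Z.X) := LinearMap.range (postC Z.π)
  let B₁ : Submodule C (HomC C R V₁ Z.X) := LinearMap.range (postC Z.π)
  have hB (Q : Type u) [AddCommGroup Q] [Module R Q] [Module.Finite R Q] :
      hlen C R Q Z.F = hlen C R Q Z.next.X + ell (LinearMap.range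
        (postC Z.π : HomC C R Q Z.F →ₗ[C] HomC C R Q Z.X)) := by
    have h := ell_eq_add (X := HomC C R Q Z.F) (Y := HomC C R Q Z.X) (postC Z.π) ⊤
    have h1 : (⊤ : Submodule C (HomC C R Q Z.F)) ⊓ LinearMap.ker (postC Z.π) =
        homIn C Q (LinearMap.ker Z.π) := by
      rw [top_inf_eq]
      ext φ
      constructor
      · intro hφ x
        have := congrArg (fun χ : HomC C R Q Z.X => χ x) (LinearMap.mem_ker.mp hφ)
        exact this
      · intro hφ
        refine LinearMap.mem_ker.mpr (HomC.ext fun x => ?_)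
        exact hφ x
    rw [h1, ell_homIn, Submodule.map_top, ← hlen_eq_ell_top] at h
    exact h
  have hB₀ := hB V₀
  have hB₁ := hB V₁
  let α : HomC C R V₀ Z.X →ₗ[C] HomC C R V₁ Z.X := preC i
  have hαsurj : Function.Surjective α := by
    intro ψ
    obtain ⟨φ, hφ⟩ := extend_along i p hi hp hex h₁ (HomC.lin ψ)
    exact ⟨HomC.mk φ, HomC.ext hφ⟩
  let D : Submodule C (HomC C R V₀ Z.X) := B₁.comap α
  have hD1 := ell_eq_add α D
  have hD2 := ell_eq_add α ⊤
  have hD3 : D ⊓ LinearMap.ker α = LinearMap.ker α := by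
    apply inf_eq_right.mpr
    intro φ hφ
    have : α φ = 0 := hφ
    change α φ ∈ B₁
    rw [this]
    exact zero_mem _
  have hD4 : D.map α = B₁ := Submodule.map_comap_eq_of_surjective hαsurj _
  have hD5 : (⊤ : Submodule C (HomC C R V₀ Z.X)).map α = ⊤ := by
    rw [Submodule.map_top, LinearMap.range_eq_top]
    exact hαsurj
  rw [hD3, hD4] at hD1
  rw [top_inf_eq, hD5, ← hlen_eq_ell_top, ← hlen_eq_ell_top] at hD2
  have hlt : B₀ < D := by
    refine lt_of_le_of_ne ?_ ?_
    · rintro _ ⟨φ, rfl⟩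
      refine ⟨preC i φ, ?_⟩
      rfl
    · intro heq
      have hp0 : (HomC.mk p : HomC C R V₀ Z.X) ∈ D := by
        change α (HomC.mk p) ∈ B₁
        have : α (HomC.mk p) = 0 := HomC.ext fun x => (hex _).mpr ⟨x, rfl⟩
        rw [this]
        exact zero_mem _
      rw [← heq] at hp0
      obtain ⟨φ, hφ⟩ := hp0
      exact hnl ⟨HomC.lin φ, fun x => congrArg (fun χ : HomC C R V₀ Z.X => χ x) hφ⟩
  have h3 := ell_lt_of_lt hlt
  change hlen C R V₀ Z.F = hlen C R V₀ Z.next.X + ell B₀ at hB₀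
  change hlen C R V₁ Z.F = hlen C R V₁ Z.next.X + ell B₁ at hB₁
  omega

/-- The structure of a presentation lifting to the cover. -/
lemma count_lifted (Z : FM R) {V₀ V₁ : Type u} [AddCommGroup V₀] [Module R V₀]
    [AddCommGroup V₁] [Module R V₁] [Module.Finite R V₀] [Module.Finite R V₁]
    (i : V₁ →ₗ[R] V₀) (p : V₀ →ₗ[R] Z.X) (hi : Function.Injective i)
    (hp : Function.Surjective p) (hex : Function.Exact i p)
    (q : V₀ →ₗ[R] Z.F) (hq : ∀ x, Z.π (q x) = p x)
    (Y : Type u) [AddCommGroup Y] [Module R Y] [Module.Finite R Y] :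
    hlen C R V₀ Y + hlen C R Z.next.X Y = hlen C R Z.F Y + hlen C R V₁ Y := by
  have hqs : Function.Surjective q := by
    apply surjective_of_sup_rad
    intro y
    obtain ⟨x, hx⟩ := hp (Z.π y)
    refine ⟨x, Z.ker_le ?_⟩
    rw [LinearMap.mem_ker, map_sub, hq, hx, sub_self]
  obtain ⟨g, hg⟩ := Module.projective_lifting_property q LinearMap.id hqs
  have hg' : ∀ y, q (g y) = y := fun y => congrArg (fun f => f y) hg
  let K := LinearMap.ker q
  have hKf : Module.Finite R K := Module.Finite.of_fg (IsNoetherian.noetherian _)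
  let E₀ : V₀ ≃ₗ[R] Z.F × K :=
    { toFun := fun x => (q x, ⟨x - g (q x), by simp [K, hg']⟩)
      map_add' := fun x y => by
        apply Prod.ext
        · simp
        · apply Subtype.ext
          simp only [map_add, Prod.snd_add, Submodule.coe_add]
          abel
      map_smul' := fun c x => by
        apply Prod.ext
        · simp
        · apply Subtype.ext
          simp [smul_sub]
      invFun := fun w => g w.1 + w.2
      left_inv := fun x => by simp
      right_inv := fun w => by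
        have hw : q (w.2 : V₀) = 0 := w.2.2
        apply Prod.ext
        · simp [hg', hw]
        · apply Subtype.ext
          simp [hg', hw] }
  let τ₁ : V₁ →ₗ[R] Z.next.X :=
    ((q ∘ₗ i).codRestrict (LinearMap.ker Z.π) (fun y => by
      rw [LinearMap.mem_ker, LinearMap.comp_apply, hq]
      exact (hex _).mpr ⟨y, rfl⟩) : V₁ →ₗ[R] LinearMap.ker Z.π)
  have hτ₁ : ∀ y, Z.inc (τ₁ y) = q (i y) := fun y => rfl
  let τ₂ : V₁ →ₗ[R] K :=
    ((LinearMap.id - g ∘ₗ q) ∘ₗ i).codRestrict K (fun y => by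
      simp [K, hg'])
  have hτ₂ : ∀ y, ((τ₂ y : K) : V₀) = i y - g (q (i y)) := fun y => rfl
  let τ : V₁ →ₗ[R] Z.next.X × K := LinearMap.prod τ₁ τ₂
  have hτ : Function.Bijective τ := by
    constructor
    · rw [← LinearMap.ker_eq_bot, LinearMap.ker_eq_bot']
      intro y hy
      have h1 : τ₁ y = 0 := congrArg Prod.fst hy
      have h2 : τ₂ y = 0 := congrArg Prod.snd hy
      have h3 : q (i y) = 0 := by rw [← hτ₁, h1, map_zero]
      have h4 : i y - g (q (i y)) = 0 := by
        rw [← hτ₂, h2]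
        rfl
      rw [h3, map_zero, sub_zero] at h4
      exact hi (by rw [h4, map_zero])
    · rintro ⟨n, k⟩
      have hk : q (k : V₀) = 0 := k.2
      have hmem : p (g (Z.inc n) + (k : V₀)) = 0 := by
        rw [map_add, ← hq, ← hq, hg', hk, map_zero, add_zero, Z.π_inc]
      obtain ⟨y, hy⟩ := (hex _).mp hmem
      refine ⟨y, Prod.ext ?_ (Subtype.ext ?_)⟩
      · apply Z.inc_inj
        change Z.inc (τ₁ y) = Z.inc n
        rw [hτ₁, hy, map_add, hg', hk, add_zero]
      · change ((τ₂ y : K) : V₀) = k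
        rw [hτ₂, hy, map_add, hg', hk, add_zero]
        abel
  let E₁ : V₁ ≃ₗ[R] Z.next.X × K := LinearEquiv.ofBijective τ hτ
  have e₀ : hlen C R V₀ Y = hlen C R Z.F Y + hlen C R K Y := by
    rw [hlen_congr_left C R E₀, hlen_prod_left]
  have e₁ : hlen C R V₁ Y = hlen C R Z.next.X Y + hlen C R K Y := by
    rw [hlen_congr_left C R E₁, hlen_prod_left]
  omega

/-- Strictness for a nonprojective module. -/
lemma count_neg (Z : FM R) (hnp : ¬ Module.Projective R Z.X) :
    hlen C R Z.X Z.F < hlen C R Z.X Z.X + hlen C R Z.X Z.next.X := by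
  have h := ell_eq_add (X := HomC C R Z.X Z.F) (Y := HomC C R Z.X Z.X) (postC Z.π) ⊤
  have h1 : (⊤ : Submodule C (HomC C R Z.X Z.F)) ⊓ LinearMap.ker (postC Z.π) =
      homIn C Z.X (LinearMap.ker Z.π) := by
    rw [top_inf_eq]
    ext φ
    constructor
    · intro hφ x
      have := congrArg (fun χ : HomC C R Z.X Z.X => χ x) (LinearMap.mem_ker.mp hφ)
      exact this
    · intro hφ
      refine LinearMap.mem_ker.mpr (HomC.ext fun x => ?_)
      exact hφ x
  rw [h1, ell_homIn, Submodule.map_top, ← hlen_eq_ell_top] at h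
  have h2 : LinearMap.range (postC Z.π : HomC C R Z.X Z.F →ₗ[C] HomC C R Z.X Z.X) < ⊤ := by
    rw [lt_top_iff_ne_top]
    intro htop
    have hmem : (HomC.mk LinearMap.id : HomC C R Z.X Z.X) ∈
        LinearMap.range (postC Z.π : HomC C R Z.X Z.F →ₗ[C] HomC C R Z.X Z.X) := by
      rw [htop]
      trivial
    obtain ⟨φ, hφ⟩ := hmem
    apply hnp
    refine Module.Projective.of_split (HomC.lin φ) Z.π ?_
    apply LinearMap.ext
    intro x
    exact congrArg (fun χ : HomC C R Z.X Z.X => χ x) hφ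
  have h3 := ell_lt_of_lt h2
  rw [← hlen_eq_ell_top] at h3
  change hlen C R Z.X Z.F = hlen C R Z.X Z.next.X + _ at h
  omega

lemma tower_van' {Z : FM R} {Y : ModuleCat.{u} R} {k i : ℕ} (hki : k ≤ i)
    (h : ExtVan (ModuleCat.of R (tower Z k).X) Y) :
    ExtVan (ModuleCat.of R (tower Z i).X) Y := by
  obtain ⟨t, rfl⟩ := Nat.exists_eq_add_of_le hki
  exact tower_van k h t

/-- **Main theorem.** Over an Artin algebra, if the high syzygies of a module satisfying the
conditions of the problem admit presentations with classes in a finite-dimensional space of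
functionals, then the module is projective. -/
theorem projective_of_presentations (A : Type) [Fintype A] (W : A → FM R) (X : FM R) (hAR : X.AR)
    (n : ℕ)
    (hpres : ∀ k, n ≤ k → ∃ (V₀ V₁ : FM R) (i : V₁.X →ₗ[R] V₀.X) (p : V₀.X →ₗ[R] (tower X k).X),
      Function.Injective i ∧ Function.Surjective p ∧ Function.Exact i p ∧
      (∃ μ : A → ℕ, ∀ (Y : Type u) [AddCommGroup Y] [Module R Y] [Module.Finite R Y],
        hlen C R V₀.X Y = ∑ a, μ a * hlen C R (W a).X Y) ∧
      (∃ μ : A → ℕ, ∀ (Y : Type u) [AddCommGroup Y] [Module R Y] [Module.Finite R Y],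
        hlen C R V₁.X Y = ∑ a, μ a * hlen C R (W a).X Y)) :
    Module.Projective R X.X := by
  classical
  by_contra hnp
  have hnpk : ∀ k, ¬ Module.Projective R (tower X k).X := fun k hk => hnp (tower_proj hAR k hk)
  choose V₀ V₁ i p hi hp hex h₀ h₁ using fun j => hpres (n + j) (by omega)
  choose μ₀ hμ₀ using h₀
  choose μ₁ hμ₁ using h₁
  let w : ℕ → A → ℚ := fun j a => (μ₀ j a : ℚ) - μ₁ j a
  have hw : ∀ j (Y : Type u) [AddCommGroup Y] [Module R Y] [Module.Finite R Y],
      ∑ a, w j a * (hlen C R (W a).X Y : ℚ) =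
        (hlen C R (V₀ j).X Y : ℚ) - hlen C R (V₁ j).X Y := by
    intro j Y _ _ _
    rw [hμ₀ j Y, hμ₁ j Y]
    push_cast
    rw [← Finset.sum_sub_distrib]
    exact Finset.sum_congr rfl fun a _ => by simp only [w]; ring
  obtain ⟨K, hK⟩ := stable_index w
  let T : ℕ → FM R := fun j => tower X (n + j)
  let c : ℕ → A → ℚ := fun j a => (hlen C R (W a).X (T j).X : ℚ) +
    hlen C R (W a).X (T j).next.X - hlen C R (W a).X (T j).F
  have hc : ∀ l j, ∑ a, w l a * c j a =
      ((hlen C R (V₀ l).X (T j).X : ℚ) - hlen C R (V₁ l).X (T j).X) +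
      ((hlen C R (V₀ l).X (T j).next.X : ℚ) - hlen C R (V₁ l).X (T j).next.X) -
      ((hlen C R (V₀ l).X (T j).F : ℚ) - hlen C R (V₁ l).X (T j).F) := by
    intro l j
    rw [← hw, ← hw, ← hw, ← Finset.sum_add_distrib, ← Finset.sum_sub_distrib]
    exact Finset.sum_congr rfl fun a _ => by simp only [c]; ring
  have hvan : ∀ l j, j < l → ∑ a, w l a * c j a = 0 := by
    intro l j hjl
    have hAR₁ := tower_AR hAR (n + j)
    have hAR₂ := tower_AR hAR (n + j + 1)
    have hAR₃ := tower_AR hAR (n + l)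
    have e₁ : ∀ e : Ext (ModuleCat.of R (tower X (n + l)).X) (ModuleCat.of R (T j).X) 1, e = 0 :=
      tower_van' (k := n + j) (by omega) hAR₁.1 1 le_rfl
    have e₂ : ∀ e : Ext (ModuleCat.of R (tower X (n + l)).X)
        (ModuleCat.of R (T j).next.X) 1, e = 0 :=
      tower_van' (k := n + j + 1) (by omega) hAR₂.1 1 le_rfl
    have e₃ : ∀ e : Ext (ModuleCat.of R (tower X (n + l)).X) (ModuleCat.of R (T j).F) 1, e = 0 :=
      ExtVan.proj_target hAR₃.2 _ 1 le_rfl
    have h := count_vanish C (T j) (i l) (p l) (hi l) (hp l) (hex l) e₁ e₂ e₃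
    rw [hc]
    have h' := congrArg (Nat.cast (R := ℚ)) h
    push_cast at h'
    linarith
  have hK0 := hK (c K) (fun l hl => hvan l K (by omega))
  have hK1 := hK (c (K + 1)) (fun l hl => hvan l (K + 1) (by omega))
  have hlift : ∃ q : (V₀ K).X →ₗ[R] (T K).F, ∀ x, (T K).π (q x) = p K x := by
    by_contra hnl
    have h := count_pos C (T K) (i K) (p K) (hi K) (hp K) (hex K)
      ((tower_AR hAR (n + K)).1 1 le_rfl) hnl
    rw [hc] at hK0
    have h' : ((hlen C R (V₁ K).X (T K).X + hlen C R (V₁ K).X (T K).next.X +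
        hlen C R (V₀ K).X (T K).F : ℕ) : ℚ) < ((hlen C R (V₀ K).X (T K).X +
        hlen C R (V₀ K).X (T K).next.X + hlen C R (V₁ K).X (T K).F : ℕ) : ℚ) := by
      exact_mod_cast h
    push_cast at h'
    linarith
  obtain ⟨q, hq⟩ := hlift
  have hl := fun (Y : Type u) [AddCommGroup Y] [Module R Y] [Module.Finite R Y] =>
    count_lifted C (T K) (i K) (p K) (hi K) (hp K) (hex K) q hq Y
  let Z := T (K + 1)
  have hZ : Z = (T K).next := rfl
  have l₁ : hlen C R (V₀ K).X Z.X + hlen C R Z.X Z.X =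
      hlen C R (T K).F Z.X + hlen C R (V₁ K).X Z.X := hl Z.X
  have l₂ : hlen C R (V₀ K).X Z.next.X + hlen C R Z.X Z.next.X =
      hlen C R (T K).F Z.next.X + hlen C R (V₁ K).X Z.next.X := hl Z.next.X
  have l₃ : hlen C R (V₀ K).X Z.F + hlen C R Z.X Z.F =
      hlen C R (T K).F Z.F + hlen C R (V₁ K).X Z.F := hl Z.F
  have t₁ : hlen C R (T K).F Z.F = hlen C R (T K).F Z.next.X + hlen C R (T K).F Z.X :=
    count_T1 C Z
  have t₂ := count_neg C Z (hnpk (n + (K + 1)))
  rw [hc] at hK1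
  have l₁' := congrArg (Nat.cast (R := ℚ)) l₁
  have l₂' := congrArg (Nat.cast (R := ℚ)) l₂
  have l₃' := congrArg (Nat.cast (R := ℚ)) l₃
  have t₁' := congrArg (Nat.cast (R := ℚ)) t₁
  have t₂' : ((hlen C R Z.X Z.F : ℕ) : ℚ) < ((hlen C R Z.X Z.X + hlen C R Z.X Z.next.X : ℕ) : ℚ) := by
    exact_mod_cast t₂
  push_cast at l₁' l₂' l₃' t₁' t₂'
  have hK1' : ((hlen C R (V₀ K).X Z.X : ℚ) - hlen C R (V₁ K).X Z.X) +
      ((hlen C R (V₀ K).X Z.next.X : ℚ) - hlen C R (V₁ K).X Z.next.X) -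
      ((hlen C R (V₀ K).X Z.F : ℚ) - hlen C R (V₁ K).X Z.F) = 0 := hK1
  linarith

end IT

end Vale.Agent.P195.Gen
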