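import Mathlib
import Vale.Agent.P195.Gen.IT

set_option linter.unusedSectionVars false
set_option linter.unusedVariables false

namespace Vale.Agent.P195.Gen

open CategoryTheory Abelian Vale.Agent.P195

universe u v

section Indec

variable (R : Type u) [Ring R]

/-- An indecomposable module. -/
def Indec (X : Type*) [AddCommGroup X] [Module R X] : Prop :=
  Nontrivial X ∧ ∀ S T : Submodule R X, IsCompl S T → S = ⊥ ∨ T = ⊥

/-- A retract. -/
def Retr (X T : Type*) [AddCommGroup X] [Module R X] [AddCommGroup T] [Module R T] : Prop :=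
  ∃ (s : X →ₗ[R] T) (r : T →ₗ[R] X), ∀ x, r (s x) = x

variable {R}

lemma Retr.trans {X T U : Type*} [AddCommGroup X] [Module R X] [AddCommGroup T] [Module R T]
    [AddCommGroup U] [Module R U] (h1 : Retr R X T) (h2 : Retr R T U) : Retr R X U := by
  obtain ⟨s, r, h⟩ := h1
  obtain ⟨s', r', h'⟩ := h2
  exact ⟨s' ∘ₗ s, r ∘ₗ r', fun x => by simp [h, h']⟩

lemma Retr.of_equiv {X T : Type*} [AddCommGroup X] [Module R X] [AddCommGroup T] [Module R T]
    (e : X ≃ₗ[R] T) : Retr R X T :=
  ⟨e.toLinearMap, e.symm.toLinearMap, fun x => by simp⟩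

variable [IsArtinianRing R] [IsNoetherian R R]

/-- Fitting's lemma for indecomposables. -/
lemma Indec.unit_or {X : Type*} [AddCommGroup X] [Module R X] [Module.Finite R X]
    (hX : Indec R X) (φ : Module.End R X) : IsUnit φ ∨ IsUnit (1 - φ) := by
  have hA : IsArtinian R X := inferInstance
  have hN : IsNoetherian R X := inferInstance
  obtain ⟨n, hn, hn1⟩ := ((LinearMap.eventually_isCompl_ker_pow_range_pow φ).and
    (Filter.eventually_ge_atTop 1)).exists
  rcases hX.2 _ _ hn with h | h
  · left
    have hinj : Function.Injective (φ ^ n) := LinearMap.ker_eq_bot.mp h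
    have hsurj := IsArtinian.surjective_of_injective_endomorphism (φ ^ n) hinj
    have hu : IsUnit (φ ^ n) := (Module.End.isUnit_iff _).mpr ⟨hinj, hsurj⟩
    exact (isUnit_pow_iff (by omega)).mp hu
  · right
    have h0 : φ ^ n = 0 := LinearMap.range_eq_bot.mp h
    exact IsNilpotent.isUnit_one_sub ⟨n, h0⟩

/-- A retract of a product of two modules is a retract of one of them. -/
lemma Indec.retr_prod {X A B : Type*} [AddCommGroup X] [Module R X] [Module.Finite R X]
    [AddCommGroup A] [Module R A] [AddCommGroup B] [Module R B]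
    (hX : Indec R X) (h : Retr R X (A × B)) : Retr R X A ∨ Retr R X B := by
  obtain ⟨s, r, hr⟩ := h
  let φ : Module.End R X := r ∘ₗ LinearMap.inl R A B ∘ₗ LinearMap.fst R A B ∘ₗ s
  have h1 : (1 : Module.End R X) - φ = r ∘ₗ LinearMap.inr R A B ∘ₗ LinearMap.snd R A B ∘ₗ s := by
    apply LinearMap.ext
    intro x
    have h2 : r ((s x).1, 0) + r (0, (s x).2) = x := by
      rw [← map_add]
      have : ((s x).1, (0 : B)) + (0, (s x).2) = s x := by
        apply Prod.ext <;> simp
      rw [this, hr]
    change x - r ((s x).1, 0) = r (0, (s x).2)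
    exact sub_eq_of_eq_add (by rw [add_comm]; exact h2.symm)
  rcases hX.unit_or φ with hu | hu
  · left
    obtain ⟨u, hu⟩ := hu
    refine ⟨LinearMap.fst R A B ∘ₗ s, (↑u⁻¹ : Module.End R X) ∘ₗ r ∘ₗ LinearMap.inl R A B, ?_⟩
    intro x
    have h3 : (↑u⁻¹ : Module.End R X) * φ = 1 := by rw [← hu]; simp
    exact congrArg (fun f : Module.End R X => f x) h3
  · right
    rw [h1] at hu
    obtain ⟨u, hu⟩ := hu
    refine ⟨LinearMap.snd R A B ∘ₗ s, (↑u⁻¹ : Module.End R X) ∘ₗ r ∘ₗ LinearMap.inr R A B, ?_⟩
    intro x
    have h3 : (↑u⁻¹ : Module.End R X) *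
        (r ∘ₗ LinearMap.inr R A B ∘ₗ LinearMap.snd R A B ∘ₗ s) = 1 := by rw [← hu]; simp
    exact congrArg (fun f : Module.End R X => f x) h3

/-- A retract of a finite power is a retract of the base. -/
lemma Indec.retr_pi {X T : Type*} [AddCommGroup X] [Module R X] [Module.Finite R X]
    [AddCommGroup T] [Module R T] (hX : Indec R X) :
    ∀ (m : ℕ), Retr R X (Fin m → T) → Retr R X T := by
  intro m
  induction m with
  | zero =>
    rintro ⟨s, r, hr⟩
    exfalso
    have : Nontrivial X := hX.1
    obtain ⟨x, hx⟩ := exists_ne (0 : X)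
    apply hx
    rw [← hr x, Subsingleton.elim (s x) 0, map_zero]
  | succ m ih =>
    intro h
    let e : (Fin (m + 1) → T) ≃ₗ[R] T × (Fin m → T) :=
      { toFun := fun f => (f 0, fun i => f i.succ)
        map_add' := fun f g => rfl
        map_smul' := fun c f => rfl
        invFun := fun p => Fin.cons p.1 p.2
        left_inv := fun f => by
          funext i
          refine Fin.cases ?_ (fun j => ?_) i <;> simp
        right_inv := fun p => by
          simp }
    rcases hX.retr_prod (h.trans (Retr.of_equiv e)) with h1 | h1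
    · exact h1
    · exact ih h1

/-- An indecomposable retract of an indecomposable module is isomorphic to it. -/
lemma Indec.equiv_of_retr {X T : Type*} [AddCommGroup X] [Module R X] [AddCommGroup T]
    [Module R T] (hX : Indec R X) (hT : Indec R T) (h : Retr R X T) : Nonempty (X ≃ₗ[R] T) := by
  obtain ⟨s, r, hr⟩ := h
  have hc : IsCompl (LinearMap.range s) (LinearMap.ker r) := by
    constructor
    · rw [Submodule.disjoint_def]
      rintro _ ⟨x, rfl⟩ h0
      have : r (s x) = 0 := h0
      rw [hr] at this
      rw [this, map_zero]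
    · rw [codisjoint_iff, eq_top_iff]
      intro t _
      refine Submodule.mem_sup.mpr ⟨s (r t), ⟨r t, rfl⟩, t - s (r t), ?_, by abel⟩
      rw [LinearMap.mem_ker, map_sub, hr, sub_self]
  rcases hT.2 _ _ hc with h0 | h0
  · exfalso
    have : Nontrivial X := hX.1
    obtain ⟨x, hx⟩ := exists_ne (0 : X)
    apply hx
    have h1 : s x = 0 := by
      have : s x ∈ LinearMap.range s := ⟨x, rfl⟩
      rw [h0] at this
      exact this
    rw [← hr x, h1, map_zero]
  · have hinj : Function.Injective r := LinearMap.ker_eq_bot.mp h0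
    have hsurj : Function.Surjective r := fun x => ⟨s x, hr x⟩
    exact ⟨(LinearEquiv.ofBijective r ⟨hinj, hsurj⟩).symm⟩

/-- Finite direct sum decompositions over a predicate. -/
inductive DecOf (S : FM R → Prop) : FM R → Prop
  | zero (X : FM R) (h : Subsingleton X.X) : DecOf S X
  | single (X : FM R) (h : S X) : DecOf S X
  | prod (X A B : FM R) (e : X.X ≃ₗ[R] A.X × B.X) (hA : DecOf S A) (hB : DecOf S B) : DecOf S X

lemma DecOf.mono {S S' : FM R → Prop} (hS : ∀ W, S W → S' W) {X : FM R} (h : DecOf S X) :
    DecOf S' X := by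
  induction h with
  | zero X h => exact DecOf.zero X h
  | single X h => exact DecOf.single X (hS X h)
  | prod X A B e _ _ ihA ihB => exact DecOf.prod X A B e ihA ihB

/-- Every finitely generated module decomposes into indecomposable retracts. -/
theorem exists_decOf : ∀ (n : ℕ) (X : FM R), (Module.length R X.X).toNat = n →
    ∃ l : List (FM R), (∀ W ∈ l, Indec R W.X ∧ Retr R W.X X.X) ∧ DecOf (fun W => W ∈ l) X := by
  intro n
  induction n using Nat.strong_induction_on with
  | _ n ih =>
    intro X hn
    rcases subsingleton_or_nontrivial X.X with hs | hnt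
    · exact ⟨[], by simp, DecOf.zero X hs⟩
    · by_cases hI : Indec R X.X
      · refine ⟨[X], ?_, DecOf.single X (by simp)⟩
        intro W hW
        obtain rfl : W = X := by simpa using hW
        exact ⟨hI, Retr.of_equiv (LinearEquiv.refl R _)⟩
      · have hex : ∃ S T : Submodule R X.X, IsCompl S T ∧ S ≠ ⊥ ∧ T ≠ ⊥ := by
          by_contra hall
          push Not at hall
          exact hI ⟨hnt, fun S T hc => by
            by_cases hS : S = ⊥
            · exact Or.inl hS
            · exact Or.inr (hall S T hc hS)⟩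
        obtain ⟨S, T, hc, hS, hT⟩ := hex
        have hfin : ∀ U : Submodule R X.X, Module.Finite R U := fun U =>
          Module.Finite.of_fg (IsNoetherian.noetherian _)
        let FS : FM R := { X := S, fin := hfin S }
        let FT : FM R := { X := T, fin := hfin T }
        let e : X.X ≃ₗ[R] FS.X × FT.X := (Submodule.prodEquivOfIsCompl S T hc).symm
        have hlen_lt : ∀ U : Submodule R X.X, U ≠ ⊤ →
            (Module.length R U).toNat < (Module.length R X.X).toNat := by
          intro U hU
          have hlt := Submodule.length_lt hU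
          have e1 : ((Module.length R U).toNat : ℕ∞) = Module.length R U :=
            ENat.natCast_toNat (ne_top_of_lt hlt)
          have e2 : ((Module.length R X.X).toNat : ℕ∞) = Module.length R X.X :=
            ENat.natCast_toNat Module.length_ne_top
          rw [← e1, ← e2] at hlt
          exact_mod_cast hlt
        have hSt : S ≠ ⊤ := fun h => hT (by
          have := hc.disjoint
          rw [h] at this
          exact top_disjoint.mp this)
        have hTt : T ≠ ⊤ := fun h => hS (by
          have := hc.disjoint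
          rw [h] at this
          exact disjoint_top.mp this)
        have h1 := hlen_lt S hSt
        have h2 := hlen_lt T hTt
        rw [hn] at h1 h2
        obtain ⟨lS, hlS, dS⟩ := ih _ h1 FS rfl
        obtain ⟨lT, hlT, dT⟩ := ih _ h2 FT rfl
        have rS : Retr R FS.X X.X :=
          ⟨S.subtype, LinearMap.fst R S T ∘ₗ e.toLinearMap, fun x => by
            have h3 : e (x : X.X) = (x, 0) := Submodule.prodEquivOfIsCompl_symm_apply_left S T hc x
            change (e (x : X.X)).1 = x
            rw [h3]⟩
        have rT : Retr R FT.X X.X :=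
          ⟨T.subtype, LinearMap.snd R S T ∘ₗ e.toLinearMap, fun x => by
            have h3 : e (x : X.X) = (0, x) := Submodule.prodEquivOfIsCompl_symm_apply_right S T hc x
            change (e (x : X.X)).2 = x
            rw [h3]⟩
        refine ⟨lS ++ lT, ?_, DecOf.prod X FS FT e
          (dS.mono fun W hW => List.mem_append_left _ hW)
          (dT.mono fun W hW => List.mem_append_right _ hW)⟩
        intro W hW
        rcases List.mem_append.mp hW with hW | hW
        · exact ⟨(hlS W hW).1, (hlS W hW).2.trans rS⟩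
        · exact ⟨(hlT W hW).1, (hlT W hW).2.trans rT⟩

/-- An indecomposable retract of a module decomposed over a list is a retract of a member. -/
lemma Indec.retr_decOf {S : FM R → Prop} {Y : FM R} (hY : DecOf S Y) {X : Type*} [AddCommGroup X]
    [Module R X] [Module.Finite R X] (hX : Indec R X) (h : Retr R X Y.X) :
    ∃ W, S W ∧ Retr R X W.X := by
  induction hY with
  | zero Y hs =>
    exfalso
    obtain ⟨s, r, hr⟩ := h
    have : Nontrivial X := hX.1
    obtain ⟨x, hx⟩ := exists_ne (0 : X)
    apply hx
    rw [← hr x, Subsingleton.elim (s x) 0, map_zero]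
  | single Y hS => exact ⟨Y, hS, h⟩
  | prod Y A B e _ _ ihA ihB =>
    rcases hX.retr_prod (h.trans (Retr.of_equiv e)) with h1 | h1
    · exact ihA h1
    · exact ihB h1

end Indec

section Decomp

variable (C : Type v) [CommRing C] [IsArtinianRing C] {R : Type u} [Ring R] [Algebra C R]
  [Module.Finite C R] [IsArtinianRing R] [IsNoetherian R R]

lemma sum_bump' {A : Type*} [Fintype A] [DecidableEq A] (q : A) (g : A → ℕ) :
    ∑ a, (if a = q then 1 else 0) * g a = g q := by
  simp only [ite_mul, one_mul, zero_mul, Finset.sum_ite_eq', Finset.mem_univ, if_true]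

/-- The numerical decomposition over a decomposition of a module. -/
lemma DecOf.numeric {A : Type} [Fintype A] (W : A → FM R) {S : FM R → Prop}
    (hS : ∀ U, S U → ∃ a, Nonempty (U.X ≃ₗ[R] (W a).X)) {Z : FM R} (hZ : DecOf S Z) :
    ∃ μ : A → ℕ, ∀ (Y : Type u) [AddCommGroup Y] [Module R Y] [Module.Finite R Y],
      hlen C R Z.X Y = ∑ a, μ a * hlen C R (W a).X Y := by
  classical
  induction hZ with
  | zero Z hs =>
    refine ⟨fun _ => 0, fun Y _ _ _ => ?_⟩
    have : Subsingleton (HomC C R Z.X Y) := ⟨fun φ ψ => HomC.ext fun x => by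
      rw [Subsingleton.elim x 0]
      exact (map_zero (HomC.lin φ)).trans (map_zero (HomC.lin ψ)).symm⟩
    simp [hlen]
  | single Z h =>
    obtain ⟨a, ⟨e⟩⟩ := hS Z h
    refine ⟨fun b => if b = a then 1 else 0, fun Y _ _ _ => ?_⟩
    rw [sum_bump', hlen_congr_left C R e]
  | prod Z A' B' e _ _ ihA ihB =>
    obtain ⟨μA, hA⟩ := ihA
    obtain ⟨μB, hB⟩ := ihB
    refine ⟨fun a => μA a + μB a, fun Y _ _ _ => ?_⟩
    rw [hlen_congr_left C R e, hlen_prod_left, hA, hB, ← Finset.sum_add_distrib]
    exact Finset.sum_congr rfl fun a _ => by ring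

/-- The objects of `add V` have numerical data in a finite-dimensional space. -/
theorem exists_add_numeric (V : FM R) :
    ∃ (A : Type) (_ : Fintype A) (W : A → FM R), ∀ (Z : FM R) (m : ℕ),
      Retr R Z.X (Fin m → V.X) →
      ∃ μ : A → ℕ, ∀ (Y : Type u) [AddCommGroup Y] [Module R Y] [Module.Finite R Y],
        hlen C R Z.X Y = ∑ a, μ a * hlen C R (W a).X Y := by
  obtain ⟨l, hl, dl⟩ := exists_decOf (R := R) _ V rfl
  refine ⟨Fin l.length, inferInstance, fun a => l.get a, fun Z m hZ => ?_⟩
  obtain ⟨lZ, hlZ, dZ⟩ := exists_decOf (R := R) _ Z rfl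
  refine DecOf.numeric C _ (S := fun U => U ∈ lZ) ?_ dZ
  intro U hU
  obtain ⟨hU1, hU2⟩ := hlZ U hU
  have h1 : Retr R U.X V.X := hU1.retr_pi m (hU2.trans hZ)
  obtain ⟨W, hW, hUW⟩ := hU1.retr_decOf dl h1
  obtain ⟨⟨a, ha⟩, rfl⟩ : ∃ a : Fin l.length, l.get a = W := List.get_of_mem hW
  obtain ⟨e⟩ := hU1.equiv_of_retr (hl _ hW).1 hUW
  exact ⟨⟨a, ha⟩, ⟨e⟩⟩

end Decomp

end Vale.Agent.P195.Gen
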