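import Mathlib

set_option linter.unusedSectionVars false
set_option linter.unusedVariables false

namespace Vale.Agent.P195.Gen

/-- A linear recursion of order two over a finite index set is incompatible with the
orthogonality pattern coming from vanishing of `Ext`. -/
theorem lin_contra {A : Type*} [Fintype A] (m : ℕ → A → ℚ) (α β : A → A → ℚ)
    (hrec : ∀ j c, m (j + 3) c = ∑ b, α c b * m (j + 2) b + ∑ b, β c b * m (j + 1) b)
    (τ υ : ℕ → A → ℚ)
    (hE : ∀ k, 2 ≤ k → ∀ i, k < i → ∑ a, m i a * τ k a = ∑ a, m (i + 1) a * υ k a)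
    (hS : ∀ k, 2 ≤ k → ∑ a, m (k + 1) a * υ k a < ∑ a, m k a * τ k a) : False := by
  classical
  let z : ℕ → (A → ℚ) × (A → ℚ) := fun j => (m (j + 2), m (j + 1))
  let U : ℕ → Submodule ℚ ((A → ℚ) × (A → ℚ)) := fun j => Submodule.span ℚ (z '' Set.Ici j)
  have hU : Antitone U := by
    intro i j hij
    apply Submodule.span_mono
    exact Set.image_mono (Set.Ici_subset_Ici.mpr hij)
  obtain ⟨n, hn⟩ := IsArtinian.monotone_stabilizes (R := ℚ) (M := (A → ℚ) × (A → ℚ))
    ⟨fun j => OrderDual.toDual (U j), fun i j hij => hU hij⟩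
  have hstab : U n = U (n + 1) := hn (n + 1) (Nat.le_succ n)
  have hzn : z n ∈ U (n + 1) := by
    rw [← hstab]
    exact Submodule.subset_span ⟨n, Set.mem_Ici.mpr le_rfl, rfl⟩
  let k := n + 2
  let f : ((A → ℚ) × (A → ℚ)) →ₗ[ℚ] ℚ :=
    { toFun := fun p => ∑ a, p.1 a * τ k a -
        ∑ c, (∑ b, α c b * p.1 b + ∑ b, β c b * p.2 b) * υ k c
      map_add' := by
        intro p q
        simp only [Prod.fst_add, Prod.snd_add, Pi.add_apply, add_mul, mul_add,
          Finset.sum_add_distrib]
        ring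
      map_smul' := by
        intro r p
        simp only [Prod.smul_fst, Prod.smul_snd, Pi.smul_apply, smul_eq_mul, RingHom.id_apply,
          Finset.mul_sum, Finset.sum_mul, mul_sub, add_mul, mul_add, Finset.sum_add_distrib]
        congr 1
        · exact Finset.sum_congr rfl fun a _ => by ring
        · congr 1
          · exact Finset.sum_congr rfl fun a _ => Finset.sum_congr rfl fun b _ => by ring
          · exact Finset.sum_congr rfl fun a _ => Finset.sum_congr rfl fun b _ => by ring }
  have hf : ∀ j, f (z j) = ∑ a, m (j + 2) a * τ k a - ∑ c, m (j + 3) c * υ k c := by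
    intro j
    change ∑ a, m (j + 2) a * τ k a -
      ∑ c, (∑ b, α c b * m (j + 2) b + ∑ b, β c b * m (j + 1) b) * υ k c = _
    congr 1
    exact Finset.sum_congr rfl fun c _ => by rw [hrec j c]
  have hle : U (n + 1) ≤ LinearMap.ker f := by
    apply Submodule.span_le.mpr
    rintro _ ⟨j, hj, rfl⟩
    have hj' : n + 1 ≤ j := hj
    refine LinearMap.mem_ker.mpr ?_
    rw [hf]
    have := hE k (by omega) (j + 2) (by omega)
    rw [this]
    simp
  have h0 : f (z n) = 0 := LinearMap.mem_ker.mp (hle hzn)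
  rw [hf] at h0
  have h1 := hS k (by omega)
  have h2 : ∑ a, m (n + 2) a * τ k a = ∑ c, m (n + 3) c * υ k c := by linarith
  have h3 : ∑ a, m k a * τ k a = ∑ a, m (k + 1) a * υ k a := h2
  linarith

end Vale.Agent.P195.Gen
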