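import Mathlib
import Vale.Agent.P195.Gen.Steps

set_option linter.unusedSectionVars false
set_option linter.unusedVariables false

namespace Vale.Agent.P195.Gen

open CategoryTheory Abelian Vale.Agent.P195

universe u v

section Simples

variable {R : Type u} [Ring R]

/-- The radical acts as zero on simple modules. -/
lemma simple_kill (T : Type*) [AddCommGroup T] [Module R T] [Module.Finite R T]
    [IsSimpleModule R T] : rad R T = ⊥ := by
  rcases eq_bot_or_eq_top (rad R T) with h | h
  · exact h
  · exfalso
    have : Nontrivial T := IsSimpleModule.nontrivial R T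
    have h1 : (⊤ : Submodule R T) = ⊥ := by
      apply eq_bot_of_le_rad _ Module.Finite.fg_top
      intro y _
      have : y ∈ rad R T := by rw [h]; trivial
      exact this
    exact not_subsingleton T ((Submodule.subsingleton_iff R).mp (subsingleton_of_bot_eq_top h1.symm))

lemma simple_kill' (T : Type*) [AddCommGroup T] [Module R T] [Module.Finite R T]
    [IsSimpleModule R T] (a : R) (ha : a ∈ Ring.jacobson R) (t : T) : a • t = 0 := by
  have h : a • t ∈ rad R T := Submodule.smul_mem_smul ha trivial
  rw [simple_kill] at h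
  exact h

variable (R) in
/-- A finite list of simple modules, one in each isomorphism class. -/
structure SimpleList where
  A : Type
  [fA : Fintype A]
  S : A → FM R
  simple : ∀ a, IsSimpleModule R (S a).X
  sep : ∀ a b, Nonempty ((S a).X ≃ₗ[R] (S b).X) → a = b
  ex : ∀ (T : Type u) [AddCommGroup T] [Module R T] [Module.Finite R T] [IsSimpleModule R T],
    ∃ a, Nonempty (T ≃ₗ[R] (S a).X)

attribute [instance] SimpleList.fA SimpleList.simple

variable [IsArtinianRing R] [IsNoetherian R R]

theorem nonempty_simpleList : Nonempty (SimpleList R) := by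
  classical
  let Tp := R ⧸ rad R R
  obtain ⟨n, S, e, hS⟩ := IsSemisimpleModule.exists_linearEquiv_fin_dfinsupp R Tp
  have hfin : ∀ i, Module.Finite R (S i) := fun i => Module.Finite.of_fg (IsNoetherian.noetherian _)
  let s : Setoid (Fin n) :=
    { r := fun i j => Nonempty (S i ≃ₗ[R] S j)
      iseqv := ⟨fun i => ⟨LinearEquiv.refl R _⟩, fun ⟨f⟩ => ⟨f.symm⟩, fun ⟨f⟩ ⟨g⟩ => ⟨f.trans g⟩⟩ }
  have hex : ∀ (T : Type u) [AddCommGroup T] [Module R T] [Module.Finite R T] [IsSimpleModule R T],
      ∃ i, Nonempty (T ≃ₗ[R] S i) := by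
    intro T _ _ _ _
    have : Nontrivial T := IsSimpleModule.nontrivial R T
    obtain ⟨t, ht⟩ := exists_ne (0 : T)
    let f₀ : R →ₗ[R] T := LinearMap.toSpanSingleton R T t
    have hf₀ : rad R R ≤ LinearMap.ker f₀ := by
      intro x hx
      exact vanish_on_rad f₀ ⊤ (fun _ => trivial)
        (fun a ha v _ => simple_kill' T a ha v) hx
    let f₁ : Tp →ₗ[R] T := (rad R R).liftQ f₀ hf₀
    have hf₁ : f₁ ((rad R R).mkQ 1) = t := by
      change f₀ 1 = t
      simp [f₀]
    let f₂ : (Π₀ i : Fin n, S i) →ₗ[R] T := f₁ ∘ₗ e.symm.toLinearMap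
    have hf₂ : f₂ ≠ 0 := by
      intro h0
      apply ht
      rw [← hf₁]
      have := congrArg (fun g => g (e ((rad R R).mkQ 1))) h0
      simpa [f₂] using this
    have hi : ∃ i, f₂ ∘ₗ DFinsupp.lsingle i ≠ 0 := by
      by_contra hall
      push Not at hall
      apply hf₂
      apply DFinsupp.lhom_ext'
      intro i
      simpa using hall i
    obtain ⟨i, hi⟩ := hi
    have := hS i
    exact ⟨i, ⟨(LinearEquiv.ofBijective _ (LinearMap.bijective_of_ne_zero hi)).symm⟩⟩
  let A := Quotient s
  have hfinA : Finite A := Quotient.finite s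
  exact ⟨{ A := A
           fA := Fintype.ofFinite A
           S := fun a => { X := S (Quotient.out a), fin := hfin _ }
           simple := fun a => hS _
           sep := fun a b h => by
             rw [← Quotient.out_eq a, ← Quotient.out_eq b]
             exact Quotient.sound h
           ex := fun T _ _ _ _ => by
             obtain ⟨i, ⟨g⟩⟩ := hex T
             refine ⟨Quotient.mk s i, ?_⟩
             have h : s.r (Quotient.out (Quotient.mk s i)) i := Quotient.mk_out i
             obtain ⟨g'⟩ := h
             exact ⟨g.trans g'.symm⟩ }⟩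

end Simples

section Decomp

variable (C : Type v) [CommRing C] [IsArtinianRing C] {R : Type u} [Ring R] [Algebra C R]
  [Module.Finite C R] [IsArtinianRing R] [IsNoetherian R R]

lemma hlen_of_subsingleton_left (F Y : Type*) [AddCommGroup F] [Module R F] [AddCommGroup Y]
    [Module R Y] [Subsingleton F] : hlen C R F Y = 0 := by
  have : Subsingleton (HomC C R F Y) := ⟨fun φ ψ => HomC.ext fun x => by
    rw [Subsingleton.elim x 0]
    exact (map_zero (HomC.lin φ)).trans (map_zero (HomC.lin ψ)).symm⟩
  simp [hlen]

lemma hlen_of_subsingleton_right (F Y : Type*) [AddCommGroup F] [Module R F] [AddCommGroup Y]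
    [Module R Y] [Subsingleton Y] : hlen C R F Y = 0 := by
  have : Subsingleton (HomC C R F Y) := ⟨fun φ ψ => HomC.ext fun x => Subsingleton.elim _ _⟩
  simp [hlen]

/-- Submodule of a product that is the product of two submodules. -/
def prodSubEquiv {A B : Type*} [AddCommGroup A] [Module R A] [AddCommGroup B] [Module R B]
    (W : Submodule R (A × B)) (U : Submodule R A) (V : Submodule R B)
    (h1 : ∀ x ∈ W, x.1 ∈ U) (h2 : ∀ x ∈ W, x.2 ∈ V)
    (h3 : ∀ a ∈ U, (a, (0 : B)) ∈ W) (h4 : ∀ b ∈ V, ((0 : A), b) ∈ W) :
    W ≃ₗ[R] U × V where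
  toFun x := (⟨x.1.1, h1 _ x.2⟩, ⟨x.1.2, h2 _ x.2⟩)
  map_add' x y := rfl
  map_smul' c x := rfl
  invFun p := ⟨(p.1.1, p.2.1), by
    have : ((p.1.1, p.2.1) : A × B) = (p.1.1, 0) + (0, p.2.1) := by simp
    rw [this]
    exact add_mem (h3 _ p.1.2) (h4 _ p.2.2)⟩
  left_inv x := rfl
  right_inv p := rfl

/-- The radical of a product. -/
def radProdEquiv (A B : Type*) [AddCommGroup A] [Module R A] [AddCommGroup B] [Module R B] :
    rad R (A × B) ≃ₗ[R] rad R A × rad R B :=
  prodSubEquiv _ _ _ (fun x hx => map_apply_mem_rad (LinearMap.fst R A B) hx)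
    (fun x hx => map_apply_mem_rad (LinearMap.snd R A B) hx)
    (fun a ha => map_apply_mem_rad (LinearMap.inl R A B) ha)
    (fun a ha => map_apply_mem_rad (LinearMap.inr R A B) ha)

/-- The second radical of a product. -/
def rad2ProdEquiv (A B : Type*) [AddCommGroup A] [Module R A] [AddCommGroup B] [Module R B] :
    rad2 R (A × B) ≃ₗ[R] rad2 R A × rad2 R B :=
  prodSubEquiv _ _ _ (fun x hx => map_apply_mem_rad2 (LinearMap.fst R A B) hx)
    (fun x hx => map_apply_mem_rad2 (LinearMap.snd R A B) hx)
    (fun a ha => map_apply_mem_rad2 (LinearMap.inl R A B) ha)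
    (fun a ha => map_apply_mem_rad2 (LinearMap.inr R A B) ha)

/-- The radical along an isomorphism. -/
def radEquiv {A B : Type*} [AddCommGroup A] [Module R A] [AddCommGroup B] [Module R B]
    (e : A ≃ₗ[R] B) : rad R A ≃ₗ[R] rad R B :=
  LinearEquiv.ofSubmodules e _ _ (map_rad_of_surjective e.toLinearMap e.surjective)

/-- The second radical along an isomorphism. -/
def rad2Equiv {A B : Type*} [AddCommGroup A] [Module R A] [AddCommGroup B] [Module R B]
    (e : A ≃ₗ[R] B) : rad2 R A ≃ₗ[R] rad2 R B :=
  LinearEquiv.ofSubmodules e _ _ (by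
    rw [Submodule.map_smul'']
    congr 1
    exact map_rad_of_surjective e.toLinearMap e.surjective)

variable (L : SimpleList R)

/-- The numerical data of a finitely generated projective along the list of simple modules. -/
structure IsDecomp (F : Type u) [AddCommGroup F] [Module R F] (m : L.A → ℕ) : Prop where
  left : ∀ (Y : Type u) [AddCommGroup Y] [Module R Y] [Module.Finite R Y],
    hlen C R F Y = ∑ a, m a * hlen C R (L.S a).F Y
  right : ∀ (Q : Type u) [AddCommGroup Q] [Module R Q] [Module.Finite R Q],
    hlen C R Q F = ∑ a, m a * hlen C R Q (L.S a).F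
  rad : ∀ (Q : Type u) [AddCommGroup Q] [Module R Q] [Module.Finite R Q],
    hlen C R Q (rad R F) = ∑ a, m a * hlen C R Q (rad R (L.S a).F)
  rad2 : ∀ (Q : Type u) [AddCommGroup Q] [Module R Q] [Module.Finite R Q],
    hlen C R Q (rad2 R F) = ∑ a, m a * hlen C R Q (rad2 R (L.S a).F)

lemma sum_bump {A : Type*} [Fintype A] [DecidableEq A] (m' : A → ℕ) (q : A) (g : A → ℕ) :
    ∑ a, (m' a + if a = q then 1 else 0) * g a = g q + ∑ a, m' a * g a := by
  simp only [add_mul, Finset.sum_add_distrib, ite_mul, one_mul, zero_mul, Finset.sum_ite_eq',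
    Finset.mem_univ, if_true]
  omega

variable {L} in
lemma IsDecomp.bump {F K : Type u} [AddCommGroup F] [Module R F] [AddCommGroup K] [Module R K]
    [Module.Finite R F] [Module.Finite R K] [DecidableEq L.A] (q : L.A)
    (E : F ≃ₗ[R] (L.S q).F × K) {m' : L.A → ℕ} (h : IsDecomp C L K m') :
    IsDecomp C L F (fun a => m' a + if a = q then 1 else 0) := by
  constructor
  · intro Y _ _ _
    rw [sum_bump, ← h.left Y, hlen_congr_left C R E, hlen_prod_left]
  · intro Q _ _ _
    rw [sum_bump, ← h.right Q, hlen_congr_right C R E, hlen_prod_right]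
  · intro Q _ _ _
    rw [sum_bump, ← h.rad Q, hlen_congr_right C R ((radEquiv E).trans (radProdEquiv _ _)),
      hlen_prod_right]
  · intro Q _ _ _
    rw [sum_bump, ← h.rad2 Q, hlen_congr_right C R ((rad2Equiv E).trans (rad2ProdEquiv _ _)),
      hlen_prod_right]

theorem exists_decomp : ∀ (n : ℕ) (F : Type u) [AddCommGroup F] [Module R F] [Module.Finite R F]
    [Module.Projective R F], (Module.length R F).toNat = n → ∃ m, IsDecomp C L F m := by
  classical
  intro n
  induction n using Nat.strong_induction_on with
  | _ n ih =>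
    intro F _ _ _ _ hn
    rcases subsingleton_or_nontrivial F with hs | hnt
    · refine ⟨fun _ => 0, ?_, ?_, ?_, ?_⟩
      · intro Y _ _ _
        simpa using hlen_of_subsingleton_left C F Y
      · intro Q _ _ _
        simpa using hlen_of_subsingleton_right C Q F
      · intro Q _ _ _
        simpa using hlen_of_subsingleton_right C Q (rad R F)
      · intro Q _ _ _
        simpa using hlen_of_subsingleton_right C Q (rad2 R F)
    · obtain ⟨W, hW, -⟩ := (eq_top_or_exists_le_coatom (⊥ : Submodule R F)).resolve_left
        bot_ne_top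
      have hsimple : IsSimpleModule R (F ⧸ W) := isSimpleModule_iff_isCoatom.mpr hW
      obtain ⟨q, ⟨eT⟩⟩ := L.ex (F ⧸ W)
      let f : F →ₗ[R] (L.S q).X := eT.toLinearMap ∘ₗ W.mkQ
      have hf : Function.Surjective f := eT.surjective.comp W.mkQ_surjective
      obtain ⟨θ, hθ⟩ := Module.projective_lifting_property (L.S q).π f (L.S q).surj
      have hθsurj : Function.Surjective θ := by
        apply surjective_of_sup_rad
        intro y
        obtain ⟨x, hx⟩ := hf ((L.S q).π y)
        refine ⟨x, (L.S q).ker_le ?_⟩
        have h2 : (L.S q).π (θ x) = f x := congrArg (fun g => g x) hθ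
        rw [LinearMap.mem_ker, map_sub, h2, hx, sub_self]
      obtain ⟨s, hs⟩ := Module.projective_lifting_property θ LinearMap.id hθsurj
      have hs' : ∀ y, θ (s y) = y := fun y => congrArg (fun g => g y) hs
      let K := LinearMap.ker θ
      let p : F →ₗ[R] K := LinearMap.codRestrict K (LinearMap.id - s ∘ₗ θ) (by
        intro x
        simp [K, hs'])
      have hK : Module.Projective R K := by
        refine Module.Projective.of_split K.subtype p ?_
        ext x
        have hx : θ (x : F) = 0 := x.2
        simp [p, hx]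
      have hKf : Module.Finite R K := Module.Finite.of_fg (IsNoetherian.noetherian _)
      have hSne : Nontrivial (L.S q).X := IsSimpleModule.nontrivial R _
      have hPne : Nontrivial (L.S q).F := (L.S q).surj.nontrivial
      have hKne : K ≠ ⊤ := by
        intro htop
        obtain ⟨y, hy⟩ := exists_ne (0 : (L.S q).F)
        obtain ⟨x, rfl⟩ := hθsurj y
        have : x ∈ K := by rw [htop]; trivial
        exact hy this
      have hlt := Submodule.length_lt hKne
      have hlt' : (Module.length R K).toNat < (Module.length R F).toNat := by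
        have e1 : ((Module.length R K).toNat : ℕ∞) = Module.length R K :=
          ENat.natCast_toNat (ne_top_of_lt hlt)
        have e2 : ((Module.length R F).toNat : ℕ∞) = Module.length R F :=
          ENat.natCast_toNat Module.length_ne_top
        rw [← e1, ← e2] at hlt
        exact_mod_cast hlt
      rw [hn] at hlt'
      obtain ⟨m', hm'⟩ := ih _ hlt' K rfl
      let E : F ≃ₗ[R] (L.S q).F × K :=
        { toFun := fun x => (θ x, p x)
          map_add' := fun x y => by simp
          map_smul' := fun c x => by simp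
          invFun := fun w => s w.1 + w.2
          left_inv := fun x => by
            simp [p]
          right_inv := fun w => by
            have hw : θ (w.2 : F) = 0 := w.2.2
            apply Prod.ext
            · simp [hs', hw]
            · apply Subtype.ext
              simp [p, hs', hw] }
      exact ⟨_, hm'.bump C q E⟩

/-- Every finitely generated projective has numerical data. -/
theorem exists_decomp' (F : Type u) [AddCommGroup F] [Module R F] [Module.Finite R F]
    [Module.Projective R F] : ∃ m, IsDecomp C L F m := exists_decomp C L _ F rfl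

/-- Maps between distinct covers land in the radical. -/
lemma maps_into_rad {c b : L.A} (hne : c ≠ b) (φ : (L.S c).F →ₗ[R] (L.S b).F) (x : (L.S c).F) :
    φ x ∈ rad R (L.S b).F := by
  by_contra hx
  apply hne
  let g : (L.S c).F →ₗ[R] (L.S b).X := (L.S b).π ∘ₗ φ
  have hg : g x ≠ 0 := fun h => hx ((L.S b).ker_le h)
  have hker : LinearMap.ker (L.S c).π ≤ LinearMap.ker g := by
    intro y hy
    exact vanish_on_rad g ⊤ (fun _ => trivial)
      (fun a ha v _ => simple_kill' _ a ha v) ((L.S c).ker_le hy)
  obtain ⟨g', hg'⟩ := factor_through (L.S c).π (L.S c).surj g hker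
  have hg'ne : g' ≠ 0 := by
    intro h0
    apply hg
    rw [← hg', h0]
    rfl
  exact L.sep c b ⟨LinearEquiv.ofBijective g' (LinearMap.bijective_of_ne_zero hg'ne)⟩

lemma hlen_rad_eq {c b : L.A} (hne : c ≠ b) :
    hlen C R (L.S c).F (rad R (L.S b).F) = hlen C R (L.S c).F (L.S b).F := by
  rw [← ell_homIn, hlen_eq_ell_top]
  congr 1
  rw [eq_top_iff]
  intro φ _ x
  exact maps_into_rad L hne (HomC.lin φ) x

lemma hlen_rad_lt (c : L.A) :
    hlen C R (L.S c).F (rad R (L.S c).F) < hlen C R (L.S c).F (L.S c).F := by
  rw [← ell_homIn, hlen_eq_ell_top]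
  apply ell_lt_of_lt
  rw [lt_top_iff_ne_top]
  intro htop
  have hSne : Nontrivial (L.S c).X := IsSimpleModule.nontrivial R _
  have hP : Nontrivial (L.S c).F := (L.S c).surj.nontrivial
  have hmem : (HomC.mk LinearMap.id : HomC C R (L.S c).F (L.S c).F) ∈
      homIn C (L.S c).F (rad R (L.S c).F) := by rw [htop]; trivial
  have h1 : (⊤ : Submodule R (L.S c).F) = ⊥ := by
    apply eq_bot_of_le_rad _ Module.Finite.fg_top
    intro y _
    exact hmem y
  exact not_subsingleton _ ((Submodule.subsingleton_iff R).mp (subsingleton_of_bot_eq_top h1.symm))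

end Decomp

end Vale.Agent.P195.Gen
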