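import Mathlib
import Vale.Agent.P195.Gen.Simples
import Vale.Agent.P195.Gen.LinAlg

set_option linter.unusedSectionVars false
set_option linter.unusedVariables false

namespace Vale.Agent.P195.Gen

open CategoryTheory Abelian Vale.Agent.P195

universe u v

section ClaimB

variable (C : Type v) [CommRing C] [IsArtinianRing C] {R : Type u} [Ring R] [Algebra C R]
  [Module.Finite C R] [IsArtinianRing R] [IsNoetherian R R]

variable (L : SimpleList R)

/-- The recursion on ranks. -/
lemma rank_rec (X : FM R) (m : ℕ → L.A → ℕ)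
    (hm : ∀ k, IsDecomp C L (tower X k).F (m k))
    (hG : ∀ k, 1 ≤ k → rad2 R (tower X k).F ≤
      (rad R (tower X k).next.X).map (tower X k).inc) (j : ℕ) (c : L.A) :
    (m (j + 3) c : ℚ) * ((hlen C R (L.S c).F (L.S c).F : ℚ) - hlen C R (L.S c).F (rad R (L.S c).F)) =
      ∑ b, (m (j + 2) b : ℚ) * ((hlen C R (L.S c).F (rad R (L.S b).F) : ℚ) -
        hlen C R (L.S c).F (rad2 R (L.S b).F)) -
      ∑ b, (m (j + 1) b : ℚ) * (hlen C R (L.S c).F (rad2 R (L.S b).F) : ℚ) := by
  classical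
  have A1 : hlen C R (L.S c).F (tower X (j + 3)).F =
      hlen C R (L.S c).F (tower X (j + 4)).X + hlen C R (L.S c).F (tower X (j + 3)).X :=
    count_T1 C (tower X (j + 3))
  have A2 : hlen C R (L.S c).F (rad R (tower X (j + 3)).F) =
      hlen C R (L.S c).F (tower X (j + 4)).X + hlen C R (L.S c).F (rad R (tower X (j + 3)).X) :=
    count_T2 C (tower X (j + 3))
  have A3 : hlen C R (L.S c).F (rad R (tower X (j + 2)).F) =
      hlen C R (L.S c).F (tower X (j + 3)).X + hlen C R (L.S c).F (rad R (tower X (j + 2)).X) :=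
    count_T2 C (tower X (j + 2))
  have A4 : hlen C R (L.S c).F (rad R (tower X (j + 3)).X) =
      hlen C R (L.S c).F (rad2 R (tower X (j + 2)).F) :=
    count_G C (tower X (j + 2)) (hG _ (by omega))
  have A5 : hlen C R (L.S c).F (rad R (tower X (j + 2)).X) =
      hlen C R (L.S c).F (rad2 R (tower X (j + 1)).F) :=
    count_G C (tower X (j + 1)) (hG _ (by omega))
  have E1 := (hm (j + 3)).right (L.S c).F
  have E2 := (hm (j + 3)).rad (L.S c).F
  have E3 := (hm (j + 2)).rad (L.S c).F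
  have E4 := (hm (j + 2)).rad2 (L.S c).F
  have E5 := (hm (j + 1)).rad2 (L.S c).F
  have D : (m (j + 3) c : ℚ) * ((hlen C R (L.S c).F (L.S c).F : ℚ) -
      hlen C R (L.S c).F (rad R (L.S c).F)) =
      (hlen C R (L.S c).F (tower X (j + 3)).F : ℚ) -
        hlen C R (L.S c).F (rad R (tower X (j + 3)).F) := by
    rw [E1, E2]
    push_cast
    rw [← Finset.sum_sub_distrib]
    rw [Finset.sum_eq_single c]
    · ring
    · intro b _ hb
      rw [hlen_rad_eq C L (Ne.symm hb)]
      ring
    · simp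
  rw [D]
  have h1 : (∑ b, (m (j + 2) b : ℚ) * ((hlen C R (L.S c).F (rad R (L.S b).F) : ℚ) -
        hlen C R (L.S c).F (rad2 R (L.S b).F))) =
      (hlen C R (L.S c).F (rad R (tower X (j + 2)).F) : ℚ) -
        hlen C R (L.S c).F (rad2 R (tower X (j + 2)).F) := by
    rw [E3, E4]
    push_cast
    rw [← Finset.sum_sub_distrib]
    exact Finset.sum_congr rfl fun b _ => by ring
  have h2 : (∑ b, (m (j + 1) b : ℚ) * (hlen C R (L.S c).F (rad2 R (L.S b).F) : ℚ)) =
      (hlen C R (L.S c).F (rad2 R (tower X (j + 1)).F) : ℚ) := by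
    rw [E5]
    push_cast
    rfl
  rw [h1, h2]
  have A1' := congrArg (Nat.cast (R := ℚ)) A1
  have A2' := congrArg (Nat.cast (R := ℚ)) A2
  have A3' := congrArg (Nat.cast (R := ℚ)) A3
  have A4' := congrArg (Nat.cast (R := ℚ)) A4
  have A5' := congrArg (Nat.cast (R := ℚ)) A5
  push_cast at A1' A2' A3' A4' A5'
  linarith

include C L in
/-- Linear recursion contradiction in the absence of simple summands. -/
theorem claimB
    (hJ : ∀ a ∈ Ring.jacobson R, ∀ b ∈ Ring.jacobson R, ∀ c ∈ Ring.jacobson R, a * b * c = 0)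
    (X : FM R) (hAR : X.AR) (hne : ∀ k, Nontrivial (tower X k).X)
    (hG : ∀ k, 1 ≤ k → rad2 R (tower X k).F ≤
      (rad R (tower X k).next.X).map (tower X k).inc) : False := by
  classical
  choose m hm using fun k => exists_decomp' C L (tower X k).F
  let σ : L.A → ℚ := fun c => (hlen C R (L.S c).F (L.S c).F : ℚ) -
    hlen C R (L.S c).F (rad R (L.S c).F)
  have hσ : ∀ c, 0 < σ c := by
    intro c
    have := hlen_rad_lt C L c
    have h2 : (hlen C R (L.S c).F (rad R (L.S c).F) : ℚ) < hlen C R (L.S c).F (L.S c).F := by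
      exact_mod_cast this
    simp only [σ]
    linarith
  let r1 : L.A → L.A → ℚ := fun c b => (hlen C R (L.S c).F (rad R (L.S b).F) : ℚ)
  let r2 : L.A → L.A → ℚ := fun c b => (hlen C R (L.S c).F (rad2 R (L.S b).F) : ℚ)
  let α : L.A → L.A → ℚ := fun c b => (σ c)⁻¹ * (r1 c b - r2 c b)
  let β : L.A → L.A → ℚ := fun c b => - (σ c)⁻¹ * r2 c b
  let τ : ℕ → L.A → ℚ := fun k a =>
    (hlen C R (L.S a).F (tower X k).X : ℚ) - hlen C R (L.S a).F (rad R (tower X k).X)
  let υ : ℕ → L.A → ℚ := fun k a => (hlen C R (L.S a).F (rad R (tower X k).X) : ℚ)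
  have hsq : ∀ k, 1 ≤ k → ∀ a ∈ Ring.jacobson R, ∀ v ∈ rad R (tower X k).X, a • v = 0 := by
    intro k hk
    obtain ⟨l, rfl⟩ : ∃ l, k = l + 1 := ⟨k - 1, by omega⟩
    exact kill_rad ((tower X l).next_sq hJ)
  refine lin_contra (fun k a => (m k a : ℚ)) α β ?_ τ υ ?_ ?_
  · intro j c
    have key := rank_rec C L X m hm hG j c
    have hne' := (hσ c).ne'
    have e1 : ∑ b, α c b * (m (j + 2) b : ℚ) =
        (σ c)⁻¹ * ∑ b, (m (j + 2) b : ℚ) * (r1 c b - r2 c b) := by
      rw [Finset.mul_sum]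
      exact Finset.sum_congr rfl fun b _ => by simp only [α]; ring
    have e2 : ∑ b, β c b * (m (j + 1) b : ℚ) =
        - (σ c)⁻¹ * ∑ b, (m (j + 1) b : ℚ) * r2 c b := by
      rw [Finset.mul_sum]
      exact Finset.sum_congr rfl fun b _ => by simp only [β]; ring
    change (m (j + 3) c : ℚ) = ∑ b, α c b * (m (j + 2) b : ℚ) + ∑ b, β c b * (m (j + 1) b : ℚ)
    rw [e1, e2]
    have key' : (m (j + 3) c : ℚ) * σ c = ∑ b, (m (j + 2) b : ℚ) * (r1 c b - r2 c b) -
        ∑ b, (m (j + 1) b : ℚ) * r2 c b := key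
    calc (m (j + 3) c : ℚ) = (σ c)⁻¹ * ((m (j + 3) c : ℚ) * σ c) := by field_simp
      _ = _ := by rw [key']; ring
  · intro k hk i hi
    obtain ⟨t, rfl⟩ : ∃ t, i = k + t + 1 := ⟨i - k - 1, by omega⟩
    have hv := (tower_AR hAR k).1
    have h0 : (tower X (k + t)).Ext1 (tower X k).X := tower_van k hv t 1 le_rfl
    have h1 : (tower X (k + t)).next.Ext1 (tower X k).X := tower_van k hv (t + 1) 1 le_rfl
    have hc : hlen C R (tower X (k + t + 1)).F (tower X k).X =
        hlen C R (tower X (k + t + 1)).F (rad R (tower X k).X) +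
          hlen C R (tower X (k + t + 1 + 1)).F (rad R (tower X k).X) :=
      count_E C (tower X (k + t)) h0 h1 (hsq k (by omega))
    rw [(hm (k + t + 1)).left, (hm (k + t + 1)).left, (hm (k + t + 1 + 1)).left] at hc
    have hc' := congrArg (Nat.cast (R := ℚ)) hc
    push_cast at hc'
    have e1 : ∑ a, (m (k + t + 1) a : ℚ) * τ k a =
        ∑ a, (m (k + t + 1) a : ℚ) * (hlen C R (L.S a).F (tower X k).X : ℚ) -
          ∑ a, (m (k + t + 1) a : ℚ) * (hlen C R (L.S a).F (rad R (tower X k).X) : ℚ) := by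
      rw [← Finset.sum_sub_distrib]
      exact Finset.sum_congr rfl fun b _ => by simp only [τ]; ring
    change ∑ a, (m (k + t + 1) a : ℚ) * τ k a = ∑ a, (m (k + t + 1 + 1) a : ℚ) * υ k a
    rw [e1, hc']
    simp only [υ]
    ring
  · intro k hk
    have hv := (tower_AR hAR k).1
    have h0 : (tower X k).Ext1 (tower X k).X := hv 1 le_rfl
    have hc : hlen C R (tower X k).F (rad R (tower X k).X) +
        hlen C R (tower X (k + 1)).F (rad R (tower X k).X) <
        hlen C R (tower X k).F (tower X k).X :=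
      count_S C (tower X k) h0 (hsq k (by omega)) (hne k)
    rw [(hm k).left, (hm k).left, (hm (k + 1)).left] at hc
    have hc' : ((∑ a, m k a * hlen C R (L.S a).F (rad R (tower X k).X) +
        ∑ a, m (k + 1) a * hlen C R (L.S a).F (rad R (tower X k).X) : ℕ) : ℚ) <
        ((∑ a, m k a * hlen C R (L.S a).F (tower X k).X : ℕ) : ℚ) := by
      exact_mod_cast hc
    push_cast at hc'
    have e1 : ∑ a, (m k a : ℚ) * τ k a =
        ∑ a, (m k a : ℚ) * (hlen C R (L.S a).F (tower X k).X : ℚ) -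
          ∑ a, (m k a : ℚ) * (hlen C R (L.S a).F (rad R (tower X k).X) : ℚ) := by
      rw [← Finset.sum_sub_distrib]
      exact Finset.sum_congr rfl fun b _ => by simp only [τ]; ring
    change ∑ a, (m (k + 1) a : ℚ) * υ k a < ∑ a, (m k a : ℚ) * τ k a
    rw [e1]
    simp only [υ]
    linarith

end ClaimB

end Vale.Agent.P195.Gen
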