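import Mathlib
import Vale.Agent.P195.Gen.ClaimB

set_option linter.unusedSectionVars false
set_option linter.unusedVariables false

namespace Vale.Agent.P195.Gen

open CategoryTheory Abelian Vale.Agent.P195

universe u v

section Summand

variable {R : Type u} [Ring R] [IsArtinianRing R]

/-- A simple submodule not inside the radical is a direct summand. -/
lemma simple_retract {N : Type u} [AddCommGroup N] [Module R N] (S : Submodule R N)
    [IsSimpleModule R S] (h : ¬ S ≤ rad R N) : ∃ r : N →ₗ[R] S, ∀ x : S, r x = x := by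
  let f : S →ₗ[R] (N ⧸ rad R N) := (rad R N).mkQ ∘ₗ S.subtype
  have hf : Function.Injective f := by
    rcases LinearMap.injective_or_eq_zero f with h1 | h1
    · exact h1
    · exfalso
      apply h
      intro x hx
      have := congrArg (fun g => g ⟨x, hx⟩) h1
      exact (Submodule.Quotient.mk_eq_zero _).mp this
  obtain ⟨g, hg⟩ := IsSemisimpleModule.extension_property f hf LinearMap.id
  refine ⟨g ∘ₗ (rad R N).mkQ, fun x => ?_⟩
  exact congrArg (fun k => k x) hg

variable [IsNoetherian R R]

/-- The dichotomy: if the second radical of the cover is not inside the radical of the kernel,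
a simple direct summand appears in the kernel and obstructs `Ext¹`. -/
lemma simple_summand (Z : FM R)
    (hJ : ∀ a ∈ Ring.jacobson R, ∀ b ∈ Ring.jacobson R, ∀ c ∈ Ring.jacobson R, a * b * c = 0)
    (hZ : ∀ a ∈ Ring.jacobson R, ∀ b ∈ Ring.jacobson R, ∀ x : Z.X, a • b • x = 0)
    (hn : ¬ rad2 R Z.F ≤ (rad R Z.next.X).map Z.inc) :
    ∃ (S : Submodule R Z.next.X) (_ : IsSimpleModule R S) (r : Z.next.X →ₗ[R] S),
      (∀ x : S, r x = x) ∧ ¬ Z.Ext1 S := by
  let N := Z.next.X
  let T : Submodule R Z.next.X := (rad2 R Z.F).comap Z.inc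
  have hrad2 : ∀ y ∈ rad2 R Z.X, y = 0 := by
    intro y hy
    refine Submodule.smul_induction_on hy (fun a ha v hv => kill_rad hZ a ha v hv)
      (fun u w hu hw => ?_)
    rw [hu, hw, add_zero]
  have hT : rad2 R Z.F ≤ T.map Z.inc := by
    intro y hy
    have h0 : Z.π y = 0 := hrad2 _ (map_apply_mem_rad2 Z.π hy)
    obtain ⟨x, rfl⟩ := Z.exists_inc y h0
    exact Submodule.mem_map_of_mem hy
  have hTss : IsSemisimpleModule R T := by
    apply isSemisimpleModule_of_torsion
    intro a ha x
    apply Subtype.ext
    apply Z.inc_inj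
    have hx : Z.inc (x : Z.next.X) ∈ rad2 R Z.F := x.2
    have h1 := kill_rad2 hJ a ha _ hx
    change Z.inc (a • (x : Z.next.X)) = Z.inc 0
    rw [map_smul, h1, map_zero]
  have hTn : ¬ T ≤ rad R Z.next.X := by
    intro h1
    exact hn (hT.trans (Submodule.map_mono h1))
  have hex : ∃ S₀ : Submodule R T, IsSimpleModule R S₀ ∧
      ¬ S₀ ≤ (rad R Z.next.X).comap T.subtype := by
    by_contra hall
    push Not at hall
    have h1 : sSup {m : Submodule R T | IsSimpleModule R m} ≤
        (rad R Z.next.X).comap T.subtype := sSup_le fun m hm => hall m hm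
    rw [IsSemisimpleModule.sSup_simples_eq_top] at h1
    apply hTn
    intro x hx
    exact h1 (show (⟨x, hx⟩ : T) ∈ (⊤ : Submodule R T) from trivial)
  obtain ⟨S₀, hS₀, hS₀n⟩ := hex
  let S : Submodule R Z.next.X := S₀.map T.subtype
  have hS : IsSimpleModule R S :=
    IsSimpleModule.congr (Submodule.equivMapOfInjective T.subtype T.injective_subtype S₀).symm
  have hSn : ¬ S ≤ rad R Z.next.X := by
    intro h1
    apply hS₀n
    intro x hx
    exact h1 (Submodule.mem_map_of_mem hx)
  obtain ⟨r, hr⟩ := simple_retract S hSn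
  refine ⟨S, hS, r, hr, fun hE => ?_⟩
  obtain ⟨φ, hφ⟩ := Z.extend hE r
  have hSf : Module.Finite R S := Module.Finite.of_fg (IsNoetherian.noetherian _)
  have : Nontrivial S := IsSimpleModule.nontrivial R S
  obtain ⟨s, hs⟩ := exists_ne (0 : S)
  apply hs
  have hsT : (s : Z.next.X) ∈ T := by
    obtain ⟨t, _, ht⟩ := Submodule.mem_map.mp s.2
    rw [← ht]
    exact t.2
  have h1 : φ (Z.inc s) ∈ rad2 R S := map_apply_mem_rad2 φ hsT
  have h2 : rad2 R S = ⊥ := by
    change Ring.jacobson R • rad R S = ⊥
    rw [simple_kill, Submodule.smul_bot]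
  rw [h2, hφ, hr] at h1
  exact h1

end Summand

section Main

variable (C : Type v) [CommRing C] [IsArtinianRing C] {R : Type u} [Ring R] [Algebra C R]
  [Module.Finite C R] [IsArtinianRing R] [IsNoetherian R R]

lemma tower_van0 {Z : FM R} {Y : ModuleCat.{u} R} (h : ExtVan (ModuleCat.of R Z.X) Y) (t : ℕ) :
    ExtVan (ModuleCat.of R (tower Z t).X) Y := by
  induction t with
  | zero => exact h
  | succ t ih => exact (tower Z t).syz ih

open scoped Classical in
include C in
/-- The main induction on the set of simple modules with nonvanishing `Ext`. -/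
theorem projective_of_AR_aux (L : SimpleList R)
    (hJ : ∀ a ∈ Ring.jacobson R, ∀ b ∈ Ring.jacobson R, ∀ c ∈ Ring.jacobson R, a * b * c = 0) :
    ∀ (n : ℕ) (X : FM R),
      (Finset.univ.filter (fun a => ¬ ExtVan (ModuleCat.of R X.X) (ModuleCat.of R (L.S a).X))).card
        = n → X.AR → Module.Projective R X.X := by
  intro n
  induction n using Nat.strong_induction_on with
  | _ n ih =>
    intro X hn hAR
    by_contra hnp
    have hnpk : ∀ k, ¬ Module.Projective R (tower X k).X := fun k hk =>
      hnp (tower_proj hAR k hk)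
    have hne : ∀ k, Nontrivial (tower X k).X := by
      intro k
      by_contra hk
      have hsub : Subsingleton (tower X k).X := not_nontrivial_iff_subsingleton.mp hk
      exact hnpk k (Module.Projective.of_free)
    by_cases hG : ∀ k, 1 ≤ k → rad2 R (tower X k).F ≤
        (rad R (tower X k).next.X).map (tower X k).inc
    · exact claimB C L hJ X hAR hne hG
    · push Not at hG
      obtain ⟨k, hk, hkG⟩ := hG
      obtain ⟨l, rfl⟩ : ∃ l, k = l + 1 := ⟨k - 1, by omega⟩
      let Z := tower X (l + 1)
      have hZ : ∀ a ∈ Ring.jacobson R, ∀ b ∈ Ring.jacobson R, ∀ x : Z.X, a • b • x = 0 :=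
        (tower X l).next_sq hJ
      obtain ⟨S, hS, r, hr, hnE⟩ := simple_summand Z hJ hZ hkG
      have hSf : Module.Finite R S := Module.Finite.of_fg (IsNoetherian.noetherian _)
      let Y : FM R := { X := S, fin := hSf }
      have hZAR : Z.AR := tower_AR hAR (l + 1)
      have hNAR : Z.next.AR := hZAR.next
      let s' : ModuleCat.of R S ⟶ ModuleCat.of R Z.next.X := ModuleCat.ofHom S.subtype
      let r' : ModuleCat.of R Z.next.X ⟶ ModuleCat.of R S := ModuleCat.ofHom r
      have hsr : s' ≫ r' = 𝟙 _ := by
        apply ModuleCat.hom_ext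
        apply LinearMap.ext
        intro x
        exact hr x
      have hYAR : Y.AR :=
        ⟨ExtVan.retract_left s' r' hsr (ExtVan.retract_right s' r' hsr hNAR.1),
          ExtVan.retract_left s' r' hsr hNAR.2⟩
      obtain ⟨q, ⟨eq⟩⟩ := L.ex S
      have hsubset : (Finset.univ.filter
          (fun a => ¬ ExtVan (ModuleCat.of R Y.X) (ModuleCat.of R (L.S a).X))) ⊂
          (Finset.univ.filter
            (fun a => ¬ ExtVan (ModuleCat.of R X.X) (ModuleCat.of R (L.S a).X))) := by
        rw [Finset.ssubset_iff_of_subset]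
        · refine ⟨q, ?_, ?_⟩
          · rw [Finset.mem_filter]
            refine ⟨Finset.mem_univ _, fun hv => hnE ?_⟩
            have h1 : ExtVan (ModuleCat.of R Z.X) (ModuleCat.of R (L.S q).X) := tower_van0 hv (l + 1)
            exact ExtVan.equiv_right eq.symm h1 1 le_rfl
          · rw [Finset.mem_filter]
            intro h1
            exact h1.2 (ExtVan.equiv_right eq hYAR.1)
        · intro a ha
          rw [Finset.mem_filter] at ha ⊢
          refine ⟨Finset.mem_univ _, fun hv => ha.2 ?_⟩
          have h1 : ExtVan (ModuleCat.of R Z.next.X) (ModuleCat.of R (L.S a).X) :=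
            tower_van0 hv (l + 1 + 1)
          exact ExtVan.retract_left s' r' hsr h1
      have hlt := Finset.card_lt_card hsubset
      rw [hn] at hlt
      have hYP : Module.Projective R S := ih _ hlt Y rfl hYAR
      exact hnE (ExtVan.proj_target hZAR.2 S 1 le_rfl)

end Main

section Result

/-- **Theorem.** Over an Artin algebra with radical cube zero, finitely generated modules with
vanishing self-extensions and vanishing extensions into the ring are projective. -/
theorem projective_of_cube_zero (C : Type v) [CommRing C] [IsArtinianRing C]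
    (R : Type u) [Ring R] [Algebra C R] [Module.Finite C R]
    (hJ : ∀ a ∈ Ring.jacobson R, ∀ b ∈ Ring.jacobson R, ∀ c ∈ Ring.jacobson R, a * b * c = 0)
    (M : ModuleCat.{u} R) [Module.Finite R M]
    (hMM : ∀ i : ℕ, 1 ≤ i → ∀ e : Ext M M i, e = 0)
    (hMR : ∀ i : ℕ, 1 ≤ i → ∀ e : Ext M (ModuleCat.of R R) i, e = 0) :
    Module.Projective R M := by
  have hA : IsArtinianRing R := isArtinian_of_tower C inferInstance
  have hN : IsNoetherian R R := isNoetherian_of_tower C inferInstance
  obtain ⟨L⟩ := nonempty_simpleList (R := R)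
  let X : FM R := ⟨M⟩
  exact projective_of_AR_aux C L hJ _ X rfl ⟨hMM, hMR⟩

end Result

end Vale.Agent.P195.Gen
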