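import Mathlib
import Vale.Agent.P195.Gen.AddDecomp

set_option linter.unusedSectionVars false
set_option linter.unusedVariables false

namespace Vale.Agent.P195

open CategoryTheory Abelian

universe u v

/-- `IsSyzygy M k X`: the module `X` is obtained from `M` by taking `k` successive kernels of
surjections from finitely generated projective modules. -/
inductive IsSyzygy {R : Type u} [Ring R] (M : ModuleCat.{u} R) : ℕ → ModuleCat.{u} R → Prop
  | zero : IsSyzygy M 0 M
  | succ {k : ℕ} {Y X F : ModuleCat.{u} R} (hY : IsSyzygy M k Y)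
      (hF₁ : Module.Finite R F) (hF₂ : Module.Projective R F)
      (π : F ⟶ Y) (j : X ⟶ F) (hπ : Function.Surjective π.hom) (hj : Function.Injective j.hom)
      (hex : Function.Exact j.hom π.hom) : IsSyzygy M (k + 1) X

open Gen

/-- **Theorem.** Let `R` be an Artin algebra and `M` a finitely generated module with
`Ext^i(M, M) = 0 = Ext^i(M, R)` for all `i ≥ 1`.  If there are a finitely generated module `V` and
an integer `n` such that all `k`-th syzygies of `M`, `k ≥ n`, admit short exact sequences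
`0 → V₁ → V₀ → X → 0` with `V₀, V₁ ∈ add V`, then `M` is projective. -/
theorem projective_of_igusaTodorov (C : Type v) [CommRing C] [IsArtinianRing C]
    (R : Type u) [Ring R] [Algebra C R] [Module.Finite C R]
    (M : ModuleCat.{u} R) [Module.Finite R M]
    (hMM : ∀ i : ℕ, 1 ≤ i → ∀ e : Ext M M i, e = 0)
    (hMR : ∀ i : ℕ, 1 ≤ i → ∀ e : Ext M (ModuleCat.of R R) i, e = 0)
    (V : ModuleCat.{u} R) [Module.Finite R V] (n : ℕ)
    (hIT : ∀ (k : ℕ) (X : ModuleCat.{u} R), n ≤ k → IsSyzygy M k X →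
      ∃ (V₀ V₁ : ModuleCat.{u} R) (i : V₁ ⟶ V₀) (p : V₀ ⟶ X),
        (∃ (m : ℕ) (s : V₀ →ₗ[R] (Fin m → V)) (r : (Fin m → V) →ₗ[R] V₀), ∀ x, r (s x) = x) ∧
        (∃ (m : ℕ) (s : V₁ →ₗ[R] (Fin m → V)) (r : (Fin m → V) →ₗ[R] V₁), ∀ x, r (s x) = x) ∧
        Function.Injective i.hom ∧ Function.Surjective p.hom ∧ Function.Exact i.hom p.hom) :
    Module.Projective R M := by
  have hA : IsArtinianRing R := isArtinian_of_tower C inferInstance
  have hN : IsNoetherian R R := isNoetherian_of_tower C inferInstance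
  let X : FM R := ⟨M⟩
  have hsyz : ∀ k, IsSyzygy M k (ModuleCat.of R (tower X k).X) := by
    intro k
    induction k with
    | zero => exact IsSyzygy.zero
    | succ k ih =>
      exact IsSyzygy.succ ih (F := ModuleCat.of R (tower X k).F) (X := ModuleCat.of R (tower X k).next.X)
        (inferInstanceAs (Module.Finite R (tower X k).F))
        (inferInstanceAs (Module.Projective R (tower X k).F))
        (ModuleCat.ofHom (tower X k).π) (ModuleCat.ofHom (tower X k).inc) (tower X k).surj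
        (tower X k).inc_inj (by
          intro y
          constructor
          · intro hy
            obtain ⟨x, rfl⟩ := (tower X k).exists_inc y hy
            exact ⟨x, rfl⟩
          · rintro ⟨x, rfl⟩
            exact (tower X k).π_inc x)
  obtain ⟨A, hAf, W, hW⟩ := exists_add_numeric C (R := R) (⟨V⟩ : FM R)
  refine projective_of_presentations C A W X ⟨hMM, hMR⟩ n ?_
  intro k hk
  obtain ⟨V₀, V₁, i, p, ⟨m₀, s₀, r₀, h₀⟩, ⟨m₁, s₁, r₁, h₁⟩, hi, hp, hex⟩ :=
    hIT k _ hk (hsyz k)
  have hf₀ : Module.Finite R V₀ := Module.Finite.of_surjective r₀ (fun x => ⟨s₀ x, h₀ x⟩)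
  have hf₁ : Module.Finite R V₁ := Module.Finite.of_surjective r₁ (fun x => ⟨s₁ x, h₁ x⟩)
  exact ⟨⟨V₀⟩, ⟨V₁⟩, i.hom, p.hom, hi, hp, hex,
    hW ⟨V₀⟩ m₀ ⟨s₀, r₀, h₀⟩, hW ⟨V₁⟩ m₁ ⟨s₁, r₁, h₁⟩⟩

end Vale.Agent.P195
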