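import Mathlib
import Vale.Agent.P195.Gen.ITFinal

set_option linter.unusedSectionVars false
set_option linter.unusedVariables false

namespace Vale.Agent.P195.Gen

open CategoryTheory Abelian Vale.Agent.P195 MulOpposite

universe u v

section HomG

variable (R : Type u) [Ring R] (V : Type u) [AddCommGroup V] [Module R V]

/-- The opposite of the endomorphism ring. -/
abbrev Gam : Type u := (Module.End R V)ᵐᵒᵖ

/-- Maps out of `V` with the action of `Gam` by precomposition. -/
def HomG (X : Type u) [AddCommGroup X] [Module R X] : Type u := V →ₗ[R] X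

variable {R V}
variable {X Y : Type u} [AddCommGroup X] [Module R X] [AddCommGroup Y] [Module R Y]

instance : AddCommGroup (HomG R V X) := inferInstanceAs (AddCommGroup (V →ₗ[R] X))

/-- The underlying map. -/
def HomG.lin (φ : HomG R V X) : V →ₗ[R] X := φ

/-- From a linear map. -/
def HomG.mk (φ : V →ₗ[R] X) : HomG R V X := φ

instance : Module (Gam R V) (HomG R V X) where
  smul γ φ := HomG.mk (HomG.lin φ ∘ₗ γ.unop)
  one_smul φ := rfl
  mul_smul a b φ := rfl
  smul_zero γ := LinearMap.zero_comp _
  smul_add γ φ ψ := LinearMap.add_comp _ _ _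
  add_smul a b φ := LinearMap.comp_add _ _ _
  zero_smul φ := LinearMap.comp_zero _

lemma HomG.smul_lin (γ : Gam R V) (φ : HomG R V X) :
    HomG.lin (γ • φ) = HomG.lin φ ∘ₗ γ.unop := rfl

/-- Postcomposition. -/
def HomG.post (g : X →ₗ[R] Y) : HomG R V X →ₗ[Gam R V] HomG R V Y where
  toFun φ := HomG.mk (g ∘ₗ HomG.lin φ)
  map_add' φ ψ := LinearMap.comp_add _ _ _
  map_smul' γ φ := rfl

lemma HomG.post_lin (g : X →ₗ[R] Y) (φ : HomG R V X) :
    HomG.lin (HomG.post g φ) = g ∘ₗ HomG.lin φ := rfl

@[ext] lemma HomG.ext' {φ ψ : HomG R V X} (h : HomG.lin φ = HomG.lin ψ) : φ = ψ := h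

lemma HomG.add_lin_apply (φ ψ : HomG R V X) (v : V) :
    HomG.lin (φ + ψ) v = HomG.lin φ v + HomG.lin ψ v := rfl

lemma HomG.zero_lin_apply (v : V) : HomG.lin (0 : HomG R V X) v = 0 := rfl

/-- Maps from `V` to a finite power of `V` are coordinates in the ring. -/
noncomputable def homGPiEquiv (n : ℕ) : HomG R V (Fin n → V) ≃ₗ[Gam R V] (Fin n → Gam R V) where
  toFun z j := op (LinearMap.proj j ∘ₗ HomG.lin z)
  map_add' z w := by
    funext j
    apply MulOpposite.unop_injective
    exact LinearMap.comp_add _ _ _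
  map_smul' γ z := by
    funext j
    rfl
  invFun g := HomG.mk (LinearMap.pi fun j => (g j).unop)
  left_inv z := by
    apply HomG.ext'
    rfl
  right_inv g := by
    funext j
    rfl

instance homG_pi_projective (n : ℕ) : Module.Projective (Gam R V) (HomG R V (Fin n → V)) :=
  Module.Projective.of_equiv (homGPiEquiv (R := R) (V := V) n).symm

end HomG

section Gens

variable (C : Type v) [CommRing C] [IsArtinianRing C] {R : Type u} [Ring R] [Algebra C R]
  [Module.Finite C R] [IsArtinianRing R] [IsNoetherian R R]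
variable {V : Type u} [AddCommGroup V] [Module R V] [Module.Finite R V]

include C in
/-- Maps from `V` to a finitely generated module are generated by finitely many of them under
precomposition. -/
lemma exists_gens (Z : Type u) [AddCommGroup Z] [Module R Z] [Module.Finite R Z] :
    ∃ (n : ℕ) (u : Fin n → (V →ₗ[R] Z)), ∀ φ : V →ₗ[R] Z, ∃ γ : Fin n → Module.End R V,
      φ = ∑ j, u j ∘ₗ γ j := by
  classical
  obtain ⟨n, g, hg⟩ := Module.Finite.exists_fin' C (HomC C R V Z)
  refine ⟨n, fun j => HomC.lin (g (Pi.single j 1)), fun φ => ?_⟩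
  obtain ⟨c, hc⟩ := hg (HomC.mk φ)
  refine ⟨fun j => cmul C R V (c j), ?_⟩
  have h1 : c = ∑ j, c j • (Pi.single j 1 : Fin n → C) := by
    funext k
    simp [Finset.sum_apply, Pi.single_apply]
  have h2 : HomC.mk φ = ∑ j, c j • g (Pi.single j 1) := by
    rw [← hc]
    conv_lhs => rw [h1, map_sum]
    exact Finset.sum_congr rfl fun j _ => map_smul g _ _
  apply LinearMap.ext
  intro v
  have h3 := congrArg (fun χ : HomC C R V Z => χ v) h2
  have h4 : ∀ (s : Finset (Fin n)) , (∑ j ∈ s, c j • g (Pi.single j 1) : HomC C R V Z) v =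
      ∑ j ∈ s, algebraMap C R (c j) • (g (Pi.single j 1) : HomC C R V Z) v := by
    intro s
    induction s using Finset.induction_on with
    | empty => simp
    | insert a s ha ih =>
      rw [Finset.sum_insert ha, Finset.sum_insert ha, HomC.add_apply, ih, HomC.smul_apply]
  rw [h4] at h3
  change φ v = _ at h3
  rw [h3, LinearMap.sum_apply]
  refine Finset.sum_congr rfl fun j _ => ?_
  change _ = HomC.lin (g (Pi.single j 1)) (algebraMap C R (c j) • v)
  rw [map_smul]
  rfl

/-- `V` is a generator. -/
def IsGen (R : Type u) [Ring R] (V : Type u) [AddCommGroup V] [Module R V] : Prop :=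
  ∃ (m : ℕ) (s : R →ₗ[R] (Fin m → V)) (r : (Fin m → V) →ₗ[R] R), ∀ x, r (s x) = x

include C in
/-- Every finitely generated module is a quotient of a power of a generator, in a way
compatible with maps from the generator. -/
lemma exists_cover_V (hgen : IsGen R V) (Z : Type u) [AddCommGroup Z] [Module R Z]
    [Module.Finite R Z] :
    ∃ (n : ℕ) (t : (Fin n → V) →ₗ[R] Z), Function.Surjective t ∧
      ∀ φ : V →ₗ[R] Z, ∃ z : V →ₗ[R] (Fin n → V), φ = t ∘ₗ z := by
  classical
  obtain ⟨n, u, hu⟩ := exists_gens (R := R) C (V := V) Z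
  let t : (Fin n → V) →ₗ[R] Z := ∑ j, u j ∘ₗ LinearMap.proj j
  have ht : ∀ φ : V →ₗ[R] Z, ∃ z : V →ₗ[R] (Fin n → V), φ = t ∘ₗ z := by
    intro φ
    obtain ⟨γ, hγ⟩ := hu φ
    refine ⟨LinearMap.pi γ, ?_⟩
    rw [hγ]
    apply LinearMap.ext
    intro v
    simp [t, LinearMap.sum_apply]
  refine ⟨n, t, ?_, ht⟩
  obtain ⟨m, s, r, hsr⟩ := hgen
  intro k
  let φ : Fin m → (V →ₗ[R] Z) := fun i =>
    (LinearMap.toSpanSingleton R Z k) ∘ₗ r ∘ₗ LinearMap.single R (fun _ => V) i
  choose z hz using fun i => ht (φ i)
  refine ⟨∑ i, z i (s 1 i), ?_⟩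
  rw [map_sum]
  have h1 : ∀ i, t (z i (s 1 i)) = φ i (s 1 i) := fun i => by
    rw [hz i]
    rfl
  rw [Finset.sum_congr rfl fun i _ => h1 i]
  have h2 : ∑ i, φ i (s 1 i) = (r (s 1)) • k := by
    have h3 : s 1 = ∑ i, (LinearMap.single R (fun _ => V) i) (s 1 i) := by
      funext j
      simp [Finset.sum_apply, Pi.single_apply]
    conv_rhs => rw [h3, map_sum, Finset.sum_smul]
    rfl
  rw [h2, hsr, one_smul]

include C in
lemma homG_projective (hgen : IsGen R V) (F : Type u) [AddCommGroup F] [Module R F]
    [Module.Finite R F] [Module.Projective R F] : Module.Projective (Gam R V) (HomG R V F) := by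
  obtain ⟨n, t, ht, -⟩ := exists_cover_V C (V := V) hgen F
  obtain ⟨a, ha⟩ := Module.projective_lifting_property t LinearMap.id ht
  refine Module.Projective.of_split (HomG.post a) (HomG.post t) ?_
  apply LinearMap.ext
  intro φ
  apply HomG.ext'
  apply LinearMap.ext
  intro v
  exact congrArg (fun f => f (HomG.lin φ v)) ha

end Gens

section Main

variable (C : Type v) [CommRing C] [IsArtinianRing C] {R : Type u} [Ring R] [Algebra C R]
  [Module.Finite C R] [IsArtinianRing R] [IsNoetherian R R]
variable {V : Type u} [AddCommGroup V] [Module R V] [Module.Finite R V]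

/-- Dimension shift for kernels of surjections from projectives. -/
lemma pd_shift {A B : Type u} [AddCommGroup A] [Module (Gam R V) A] [AddCommGroup B]
    [Module (Gam R V) B] [Module.Projective (Gam R V) B] (f : B →ₗ[Gam R V] A)
    (hf : Function.Surjective f) (n : ℕ)
    (h : HasProjectiveDimensionLT (ModuleCat.of (Gam R V) A) (n + 2)) :
    HasProjectiveDimensionLT (ModuleCat.of (Gam R V) (LinearMap.ker f)) (n + 1) := by
  have hS := LinearMap.shortExact_shortComplexKer hf
  have hP : Projective (ModuleCat.of (Gam R V) B) :=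
    ModuleCat.projective_of_categoryTheory_projective _
  exact (hS.hasProjectiveDimensionLT_X₃_iff n hP).mp h

include C in
/-- The key consequence of global dimension at most three: kernels of maps between projectives
have two-term resolutions in `add V`. -/
lemma pres_of_gldim (hgen : IsGen R V)
    (hgl : ∀ N : ModuleCat.{u} (Gam R V), HasProjectiveDimensionLT N 4)
    {F₁ F₀ X : Type u} [AddCommGroup F₁] [Module R F₁] [AddCommGroup F₀] [Module R F₀]
    [AddCommGroup X] [Module R X] [Module.Finite R F₁] [Module.Finite R F₀] [Module.Finite R X]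
    [Module.Projective R F₁] [Module.Projective R F₀]
    (d : F₁ →ₗ[R] F₀) (i : X →ₗ[R] F₁) (hi : Function.Injective i) (hex : Function.Exact i d) :
    ∃ (m : ℕ) (t : (Fin m → V) →ₗ[R] X), Function.Surjective t ∧
      ∃ (n : ℕ) (a : LinearMap.ker t →ₗ[R] (Fin n → V)) (b : (Fin n → V) →ₗ[R] LinearMap.ker t),
        ∀ x, b (a x) = x := by
  classical
  have hP₁ := homG_projective C (V := V) hgen F₁
  have hP₀ := homG_projective C (V := V) hgen F₀
  let Hd : HomG R V F₁ →ₗ[Gam R V] HomG R V F₀ := HomG.post d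
  let D := LinearMap.range Hd
  have h4 := hgl (ModuleCat.of (Gam R V) (HomG R V F₀ ⧸ D))
  have h3 : HasProjectiveDimensionLT (ModuleCat.of (Gam R V) (LinearMap.ker D.mkQ)) 3 :=
    pd_shift D.mkQ (Submodule.mkQ_surjective D) 2 h4
  have h3' : HasProjectiveDimensionLT (ModuleCat.of (Gam R V) D) 3 :=
    hasProjectiveDimensionLT_of_iso
      (LinearEquiv.ofEq _ _ (Submodule.ker_mkQ D)).toModuleIso 3
  let d' : HomG R V F₁ →ₗ[Gam R V] D := Hd.rangeRestrict
  have h2 : HasProjectiveDimensionLT (ModuleCat.of (Gam R V) (LinearMap.ker d')) 2 :=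
    pd_shift d' Hd.surjective_rangeRestrict 1 h3'
  let Hi : HomG R V X →ₗ[Gam R V] HomG R V F₁ := HomG.post i
  have hHi : Function.Injective Hi := by
    intro φ ψ h
    apply HomG.ext'
    apply LinearMap.ext
    intro v
    apply hi
    exact congrArg (fun χ : HomG R V F₁ => HomG.lin χ v) h
  have hrange : LinearMap.range Hi = LinearMap.ker d' := by
    ext χ
    constructor
    · rintro ⟨φ, rfl⟩
      rw [LinearMap.mem_ker]
      apply Subtype.ext
      apply HomG.ext'
      apply LinearMap.ext
      intro v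
      exact (hex _).mpr ⟨_, rfl⟩
    · intro hχ
      have h0 : ∀ v, d (HomG.lin χ v) = 0 := fun v => by
        have h1 := congrArg (fun y : D => HomG.lin y.1 v) (LinearMap.mem_ker.mp hχ)
        exact h1
      have hx : ∀ v, ∃ x, i x = HomG.lin χ v := fun v => (hex _).mp (h0 v)
      let e := LinearEquiv.ofInjective i hi
      let g : V →ₗ[R] X := e.symm.toLinearMap ∘ₗ
        (HomG.lin χ).codRestrict (LinearMap.range i) (fun v => (hex _).mp (h0 v))
      refine ⟨HomG.mk g, ?_⟩
      apply HomG.ext'
      apply LinearMap.ext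
      intro v
      have h2 : i (g v) = (e (g v) : F₁) := rfl
      change i (g v) = HomG.lin χ v
      rw [h2]
      simp only [g, LinearEquiv.coe_coe, LinearMap.comp_apply, LinearEquiv.apply_symm_apply]
      rfl
  have h2' : HasProjectiveDimensionLT (ModuleCat.of (Gam R V) (HomG R V X)) 2 := by
    have e₁ := LinearEquiv.ofInjective Hi hHi
    have e₂ := LinearEquiv.ofEq _ _ hrange
    exact hasProjectiveDimensionLT_of_iso (e₁.trans e₂).symm.toModuleIso 2
  obtain ⟨m, t, htsurj, ht⟩ := exists_cover_V C (V := V) hgen X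
  let Ht : HomG R V (Fin m → V) →ₗ[Gam R V] HomG R V X := HomG.post t
  have hHt : Function.Surjective Ht := by
    intro φ
    obtain ⟨z, hz⟩ := ht (HomG.lin φ)
    exact ⟨HomG.mk z, hz.symm⟩
  have h1 : HasProjectiveDimensionLT (ModuleCat.of (Gam R V) (LinearMap.ker Ht)) 1 :=
    pd_shift Ht hHt 0 h2'
  have hPk : Module.Projective (Gam R V) (LinearMap.ker Ht) := by
    have : Projective (ModuleCat.of (Gam R V) (LinearMap.ker Ht)) :=
      projective_iff_hasProjectiveDimensionLT_one.mpr h1
    exact (IsProjective.iff_projective _).mpr this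
  let K := LinearMap.ker t
  have hKf : Module.Finite R K := Module.Finite.of_fg (IsNoetherian.noetherian _)
  -- the maps into the kernel
  let Es : HomG R V K →ₗ[Gam R V] LinearMap.ker Ht :=
    (HomG.post K.subtype).codRestrict (LinearMap.ker Ht) (fun φ => by
      apply LinearMap.mem_ker.mpr
      apply HomG.ext'
      apply LinearMap.ext
      intro v
      exact (HomG.lin φ v).2)
  have hEs : Function.Bijective Es := by
    constructor
    · intro φ ψ h
      apply HomG.ext'
      apply LinearMap.ext
      intro v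
      apply Subtype.ext
      exact congrArg (fun y : LinearMap.ker Ht => HomG.lin y.1 v) h
    · intro χ
      have h0 : ∀ v, HomG.lin χ.1 v ∈ K := fun v => by
        have := congrArg (fun y : HomG R V X => HomG.lin y v) (LinearMap.mem_ker.mp χ.2)
        exact this
      refine ⟨HomG.mk ((HomG.lin χ.1).codRestrict K h0), ?_⟩
      apply Subtype.ext
      apply HomG.ext'
      apply LinearMap.ext
      intro v
      rfl
  have hPK : Module.Projective (Gam R V) (HomG R V K) :=
    Module.Projective.of_equiv (LinearEquiv.ofBijective Es hEs).symm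
  refine ⟨m, t, htsurj, ?_⟩
  obtain ⟨n, t', ht's, ht'⟩ := exists_cover_V C (V := V) hgen K
  let Ht' : HomG R V (Fin n → V) →ₗ[Gam R V] HomG R V K := HomG.post t'
  have hHt' : Function.Surjective Ht' := by
    intro φ
    obtain ⟨z, hz⟩ := ht' (HomG.lin φ)
    exact ⟨HomG.mk z, hz.symm⟩
  obtain ⟨a, ha⟩ := Module.projective_lifting_property Ht' LinearMap.id hHt'
  have ha' : ∀ φ, Ht' (a φ) = φ := fun φ => congrArg (fun f => f φ) ha
  let θ : HomG R V (Fin n → V) → HomG R V (Fin n → V) := fun z => a (Ht' z)
  let ε : (Fin n → V) →ₗ[R] (Fin n → V) :=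
    ∑ j, HomG.lin (θ (HomG.mk (LinearMap.single R (fun _ => V) j))) ∘ₗ LinearMap.proj j
  have hε : ∀ z : V →ₗ[R] (Fin n → V), ε ∘ₗ z = HomG.lin (θ (HomG.mk z)) := by
    intro z
    have hz : HomG.mk z = ∑ j, (op (LinearMap.proj j ∘ₗ z) : Gam R V) •
        (HomG.mk (LinearMap.single R (fun _ => V) j) : HomG R V (Fin n → V)) := by
      apply HomG.ext'
      apply LinearMap.ext
      intro v
      have h1 : ∀ (s : Finset (Fin n)), HomG.lin (∑ j ∈ s, (op (LinearMap.proj j ∘ₗ z) : Gam R V) •
          (HomG.mk (LinearMap.single R (fun _ => V) j) : HomG R V (Fin n → V))) v =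
          ∑ j ∈ s, LinearMap.single R (fun _ => V) j (z v j) := by
        intro s
        induction s using Finset.induction_on with
        | empty => simp only [Finset.sum_empty]; rfl
        | insert b s hb ih =>
          rw [Finset.sum_insert hb, Finset.sum_insert hb, HomG.add_lin_apply, ih]
          rfl
      rw [h1]
      funext k
      simp [Finset.sum_apply, Pi.single_apply, HomG.lin, HomG.mk]
    have hθ : θ (HomG.mk z) = ∑ j, (op (LinearMap.proj j ∘ₗ z) : Gam R V) •
        θ (HomG.mk (LinearMap.single R (fun _ => V) j)) := by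
      change a (Ht' _) = _
      rw [hz, map_sum, map_sum]
      refine Finset.sum_congr rfl fun j _ => ?_
      rw [map_smul, map_smul]
    rw [hθ]
    apply LinearMap.ext
    intro v
    have h1 : ∀ (s : Finset (Fin n)), HomG.lin (∑ j ∈ s, (op (LinearMap.proj j ∘ₗ z) : Gam R V) •
        θ (HomG.mk (LinearMap.single R (fun _ => V) j))) v =
        ∑ j ∈ s, HomG.lin (θ (HomG.mk (LinearMap.single R (fun _ => V) j))) (z v j) := by
      intro s
      induction s using Finset.induction_on with
      | empty => simp only [Finset.sum_empty]; rfl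
      | insert b s hb ih =>
        rw [Finset.sum_insert hb, Finset.sum_insert hb, HomG.add_lin_apply, ih]
        rfl
    rw [h1]
    simp [ε, LinearMap.sum_apply]
  have htε : ∀ x, t' (ε x) = t' x := by
    intro x
    have hz : ∀ z : V →ₗ[R] (Fin n → V), t' ∘ₗ (ε ∘ₗ z) = t' ∘ₗ z := by
      intro z
      rw [hε]
      exact congrArg HomG.lin (ha' (Ht' (HomG.mk z)))
    have hx : x = ∑ j, LinearMap.single R (fun _ => V) j (x j) := by
      funext k
      simp [Finset.sum_apply, Pi.single_apply]
    rw [hx, map_sum, map_sum, map_sum]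
    refine Finset.sum_congr rfl fun j _ => ?_
    exact congrArg (fun f => f (x j)) (hz (LinearMap.single R (fun _ => V) j))
  have hkerε : LinearMap.ker t' ≤ LinearMap.ker ε := by
    intro w hw
    have hL : Module.Finite R (LinearMap.ker t') := Module.Finite.of_fg (IsNoetherian.noetherian _)
    obtain ⟨l, t'', ht''s, -⟩ := exists_cover_V C (V := V) hgen (LinearMap.ker t')
    obtain ⟨y, hy⟩ := ht''s ⟨w, hw⟩
    have hz : ∀ j, ε ∘ₗ ((LinearMap.ker t').subtype ∘ₗ t'' ∘ₗ LinearMap.single R (fun _ => V) j) =
        0 := by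
      intro j
      rw [hε]
      have h1 : Ht' (HomG.mk ((LinearMap.ker t').subtype ∘ₗ t'' ∘ₗ
          LinearMap.single R (fun _ => V) j)) = 0 := by
        apply HomG.ext'
        apply LinearMap.ext
        intro v
        exact (t'' (LinearMap.single R (fun _ => V) j v)).2
      change HomG.lin (a (Ht' _)) = 0
      rw [h1, map_zero]
      rfl
    have hw' : w = ∑ j, ((LinearMap.ker t').subtype ∘ₗ t'' ∘ₗ
        LinearMap.single R (fun _ => V) j) (y j) := by
      have hy' : y = ∑ j, LinearMap.single R (fun _ => V) j (y j) := by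
        funext k
        simp [Finset.sum_apply, Pi.single_apply]
      have h2 : (⟨w, hw⟩ : LinearMap.ker t') =
          ∑ j, t'' (LinearMap.single R (fun _ => V) j (y j)) := by
        rw [← hy, ← map_sum, ← hy']
      have h3 := congrArg (LinearMap.ker t').subtype h2
      simpa using h3
    rw [LinearMap.mem_ker, hw', map_sum]
    exact Finset.sum_eq_zero fun j _ => congrArg (fun f => f (y j)) (hz j)
  obtain ⟨α, hα⟩ := factor_through t' ht's ε hkerε
  refine ⟨n, α, t', fun k => ?_⟩
  obtain ⟨x, rfl⟩ := ht's k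
  rw [hα, htε]

end Main

/-- **Theorem.** Let `R` be an Artin algebra, `V` a finitely generated generator with
`gl.dim End_R(V) ≤ 3`.  Then any finitely generated module `M` with
`Ext^i(M, M) = 0 = Ext^i(M, R)` for all `i ≥ 1` is projective. -/
theorem projective_of_gldim_le_three (C : Type v) [CommRing C] [IsArtinianRing C]
    (R : Type u) [Ring R] [Algebra C R] [Module.Finite C R]
    (V : Type u) [AddCommGroup V] [Module R V] [Module.Finite R V]
    (hgen : ∃ (m : ℕ) (s : R →ₗ[R] (Fin m → V)) (r : (Fin m → V) →ₗ[R] R), ∀ x, r (s x) = x)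
    (hgl : ∀ N : ModuleCat.{u} (Module.End R V)ᵐᵒᵖ, HasProjectiveDimensionLT N 4)
    (M : ModuleCat.{u} R) [Module.Finite R M]
    (hMM : ∀ i : ℕ, 1 ≤ i → ∀ e : Ext M M i, e = 0)
    (hMR : ∀ i : ℕ, 1 ≤ i → ∀ e : Ext M (ModuleCat.of R R) i, e = 0) :
    Module.Projective R M := by
  have hA : IsArtinianRing R := isArtinian_of_tower C inferInstance
  have hN : IsNoetherian R R := isNoetherian_of_tower C inferInstance
  refine projective_of_igusaTodorov C R M hMM hMR (ModuleCat.of R V) 2 ?_
  intro k X hk hX
  obtain ⟨k', rfl⟩ : ∃ k', k = k' + 2 := ⟨k - 2, by omega⟩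
  cases hX with
  | succ hY hF₁ hF₂ π j hπ hj hex =>
    cases hY with
    | succ hY' hF₁' hF₂' π' j' hπ' hj' hex' =>
      rename_i Y F Y' F'
      have hXf : Module.Finite R X := Module.Finite.of_injective j.hom hj
      have hex2 : Function.Exact j.hom (j'.hom ∘ₗ π.hom) := by
        intro y
        constructor
        · intro hy
          have : j'.hom (π.hom y) = 0 := hy
          have h0 : π.hom y = 0 := hj' (by rw [this, map_zero])
          exact (hex y).mp h0
        · rintro ⟨x, rfl⟩
          have h0 : π.hom (j.hom x) = 0 := (hex _).mpr ⟨x, rfl⟩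
          change j'.hom (π.hom (j.hom x)) = 0
          rw [h0, map_zero]
      obtain ⟨m, t, hts, n', a, b, hab⟩ := pres_of_gldim C (V := V) hgen hgl
        (j'.hom ∘ₗ π.hom) j.hom hj hex2
      refine ⟨ModuleCat.of R (Fin m → V), ModuleCat.of R (LinearMap.ker t),
        ModuleCat.ofHom (LinearMap.ker t).subtype, ModuleCat.ofHom t,
        ⟨m, LinearMap.id, LinearMap.id, fun _ => rfl⟩, ⟨n', a, b, hab⟩,
        Subtype.val_injective, hts, ?_⟩
      intro y
      constructor
      · intro hy
        exact ⟨⟨y, hy⟩, rfl⟩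
      · rintro ⟨x, rfl⟩
        exact x.2

end Vale.Agent.P195.Gen
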